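import Vale.Agent.P007.OrderGen

namespace Vale.Agent.P007

open Polynomial

section Adapted

variable {K : Type*} [Field K] (α : K) (g h : ℤ[X]) {a b : ℕ}

/-- The family `γ^j α^i`, `γ = h(α)`, `j < a`, `i < b`. -/
noncomputable def adaptedFam (a b : ℕ) : Fin a × Fin b → K :=
  fun p => (aeval α h) ^ (p.1 : ℕ) * α ^ (p.2 : ℕ)

/-- The index set of the pure powers of `γ`. -/
def pureIdx (a b : ℕ) : Fin a × Fin b → Prop := fun p => (p.2 : ℕ) = 0

instance (a b : ℕ) : DecidablePred (pureIdx a b) := fun p => inferInstanceAs (Decidable ((p.2 : ℕ) = 0))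

variable (hg : g.Monic) (hga : g.natDegree = a) (hh : h.Monic) (hhb : h.natDegree = b)
  (ha : 0 < a) (hb : 0 < b) (hroot : aeval (aeval α h) g = 0)

include hg hga ha hroot in
lemma aeval_gamma_mem (p : ℤ[X]) :
    aeval (aeval α h) p ∈ Submodule.span ℤ (Set.range fun j : Fin a => (aeval α h) ^ (j : ℕ)) := by
  have hg1 : g ≠ 1 := by
    intro h1
    rw [h1, natDegree_one] at hga
    omega
  rw [← aeval_modByMonic_eq_self_of_root hroot (p := p)]
  have hlt : (p %ₘ g).natDegree < a := by
    rw [← hga]
    exact natDegree_modByMonic_lt p hg hg1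
  rw [aeval_eq_sum_range' hlt]
  apply Submodule.sum_mem
  intro i hi
  apply Submodule.smul_mem
  apply Submodule.subset_span
  exact ⟨⟨i, by simpa using hi⟩, rfl⟩

lemma pure_mul_pow_mem {y : K}
    (hy : y ∈ Submodule.span ℤ (Set.range fun j : Fin a => (aeval α h) ^ (j : ℕ))) (i : Fin b) :
    y * α ^ (i : ℕ) ∈ Submodule.span ℤ (Set.range (adaptedFam α h a b)) := by
  induction hy using Submodule.span_induction with
  | mem x hx =>
    obtain ⟨j, rfl⟩ := hx
    exact Submodule.subset_span ⟨(j, i), rfl⟩
  | zero => simp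
  | add x y _ _ hx hy =>
    rw [add_mul]
    exact Submodule.add_mem _ hx hy
  | smul c x _ hx =>
    rw [smul_mul_assoc]
    exact Submodule.smul_mem _ c hx

include hg hga ha hroot in
lemma gamma_mul_mem {x : K} (hx : x ∈ Submodule.span ℤ (Set.range (adaptedFam α h a b))) :
    aeval α h * x ∈ Submodule.span ℤ (Set.range (adaptedFam α h a b)) := by
  induction hx using Submodule.span_induction with
  | mem x hx =>
    obtain ⟨⟨j, i⟩, rfl⟩ := hx
    have h1 := aeval_gamma_mem α g h hg hga ha hroot (X ^ ((j : ℕ) + 1))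
    have h2 := pure_mul_pow_mem α h h1 i
    simp only [map_pow, aeval_X] at h2
    have e : aeval α h * adaptedFam α h a b (j, i) =
        (aeval α h) ^ ((j : ℕ) + 1) * α ^ (i : ℕ) := by
      simp only [adaptedFam]
      ring
    rw [e]
    exact h2
  | zero => simp
  | add x y _ _ hx hy =>
    rw [mul_add]
    exact Submodule.add_mem _ hx hy
  | smul c x _ hx =>
    rw [mul_smul_comm]
    exact Submodule.smul_mem _ c hx

include hg hga hh hhb ha hb hroot in
lemma aeval_alpha_mem (p : ℤ[X]) :
    aeval α p ∈ Submodule.span ℤ (Set.range (adaptedFam α h a b)) := by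
  induction hn : p.natDegree using Nat.strong_induction_on generalizing p with
  | _ n ih =>
    by_cases hlt : p.natDegree < b
    · rw [aeval_eq_sum_range' hlt]
      apply Submodule.sum_mem
      intro i hi
      apply Submodule.smul_mem
      apply Submodule.subset_span
      refine ⟨(⟨0, ha⟩, ⟨i, by simpa using hi⟩), ?_⟩
      simp [adaptedFam]
    · push Not at hlt
      have hdecomp := modByMonic_add_div p h
      have h1 : (p %ₘ h).natDegree < b := by
        rw [← hhb]
        apply natDegree_modByMonic_lt p hh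
        intro h1
        rw [h1, natDegree_one] at hhb
        omega
      have h2 : (p /ₘ h).natDegree < n := by
        rw [natDegree_divByMonic p hh, hhb, ← hn]
        omega
      have m1 : aeval α (p %ₘ h) ∈ Submodule.span ℤ (Set.range (adaptedFam α h a b)) := by
        rw [aeval_eq_sum_range' h1]
        apply Submodule.sum_mem
        intro i hi
        apply Submodule.smul_mem
        apply Submodule.subset_span
        refine ⟨(⟨0, ha⟩, ⟨i, by simpa using hi⟩), ?_⟩
        simp [adaptedFam]
      have m2 := gamma_mul_mem α g h hg hga ha hroot (ih _ h2 (p /ₘ h) rfl)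
      have : aeval α p = aeval α (p %ₘ h) + aeval α h * aeval α (p /ₘ h) := by
        rw [← map_mul, ← map_add, hdecomp]
      rw [this]
      exact Submodule.add_mem _ m1 m2

lemma adaptedFam_eq_aeval (p : Fin a × Fin b) :
    adaptedFam α h a b p = aeval α (h ^ (p.1 : ℕ) * X ^ (p.2 : ℕ)) := by
  simp [adaptedFam]

include hg hga hh hhb ha hb hroot in
lemma adapted_mul_mem (p q : Fin a × Fin b) :
    adaptedFam α h a b p * adaptedFam α h a b q ∈
      Submodule.span ℤ (Set.range (adaptedFam α h a b)) := by
  rw [adaptedFam_eq_aeval, adaptedFam_eq_aeval, ← map_mul]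
  exact aeval_alpha_mem α g h hg hga hh hhb ha hb hroot _

include hb in
lemma pure_span_le :
    Submodule.span ℤ (Set.range fun j : Fin a => (aeval α h) ^ (j : ℕ)) ≤
      Submodule.span ℤ (adaptedFam α h a b '' {p | pureIdx a b p}) := by
  rw [Submodule.span_le]
  rintro _ ⟨j, rfl⟩
  apply Submodule.subset_span
  refine ⟨(j, ⟨0, hb⟩), rfl, ?_⟩
  simp [adaptedFam]

include hg hga ha hb hroot in
lemma adapted_pure_mul_mem (p q : Fin a × Fin b) (hp : pureIdx a b p) (hq : pureIdx a b q) :
    adaptedFam α h a b p * adaptedFam α h a b q ∈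
      Submodule.span ℤ (adaptedFam α h a b '' {p | pureIdx a b p}) := by
  apply pure_span_le α h hb
  have h1 := aeval_gamma_mem α g h hg hga ha hroot (X ^ ((p.1 : ℕ) + (q.1 : ℕ)))
  simp only [map_pow, aeval_X] at h1
  have hp' : (p.2 : ℕ) = 0 := hp
  have hq' : (q.2 : ℕ) = 0 := hq
  have e : adaptedFam α h a b p * adaptedFam α h a b q =
      (aeval α h) ^ ((p.1 : ℕ) + (q.1 : ℕ)) := by
    simp only [adaptedFam, hp', hq']
    ring
  rw [e]
  exact h1

include ha hb in
lemma one_mem_pure :
    (1 : K) ∈ Submodule.span ℤ (adaptedFam α h a b '' {p | pureIdx a b p}) := by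
  apply Submodule.subset_span
  refine ⟨(⟨0, ha⟩, ⟨0, hb⟩), rfl, ?_⟩
  simp [adaptedFam]

end Adapted

end Vale.Agent.P007
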