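import Vale.Agent.P007.Nonempty

namespace Vale.Agent.P007

open Matrix MeasureTheory Topology Set Polynomial

variable {n : ℕ}

/-- The integer bound on the coefficients. -/
noncomputable def coeffBd (n : ℕ) (C : ℝ) : ℕ := Nat.ceil (max C 1 ^ n * n.choose (n / 2))

/-- All real roots of integer polynomials of degree at most `n` with coefficients bounded. -/
def rootSet0 (n : ℕ) (C : ℝ) : Set ℝ :=
  ⋃ (f : ℤ[X]) (_ : f.natDegree ≤ n ∧ ∀ i, f.coeff i ∈ Set.Icc (-(coeffBd n C : ℤ)) (coeffBd n C)),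
    ((f.map (Int.castRingHom ℝ)).roots.toFinset : Set ℝ)

lemma rootSet0_finite (n : ℕ) (C : ℝ) : (rootSet0 n C).Finite :=
  Polynomial.bUnion_roots_finite (Int.castRingHom ℝ) n (Set.finite_Icc _ _)

open Classical in
/-- The irrational ones among them. -/
noncomputable def rootSetIrr (n : ℕ) (C : ℝ) : Finset ℝ :=
  (rootSet0_finite n C).toFinset.filter Irrational

lemma irrational_of_mem_rootSetIrr {n : ℕ} {C r : ℝ} (h : r ∈ rootSetIrr n C) : Irrational r := by
  classical
  unfold rootSetIrr at h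
  exact (Finset.mem_filter.mp h).2

lemma mem_rootSet0_of_stab {C : ℝ} {d : Fin n → ℝ} (hd : ∀ j, |d j| ≤ C) {x : LatX n}
    (hx : x ∈ stab (Matrix.diagonal d)) (j : Fin n) : d j ∈ rootSet0 n C := by
  induction x using QuotientGroup.induction_on with
  | H g =>
    rw [mem_stab_iff] at hx
    obtain ⟨N, hN⟩ : IsIntMat _ := hx
    have hmap : N.charpoly.map (Int.castRingHom ℝ) = ∏ i, (X - Polynomial.C (d i)) := by
      rw [← Matrix.charpoly_map]
      have e : N.map (Int.castRingHom ℝ) = N.map (Int.cast : ℤ → ℝ) := rfl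
      rw [e, ← hN, Matrix.charpoly_mul_comm, ← Matrix.mul_assoc, mul_inv_coe, Matrix.one_mul,
        Matrix.charpoly_diagonal]
    have hroots : (N.charpoly.map (Int.castRingHom ℝ)).roots = Finset.univ.val.map d := by
      rw [hmap]
      have := Polynomial.roots_multiset_prod_X_sub_C (Finset.univ.val.map d)
      rw [Multiset.map_map] at this
      exact this
    have hsplit : (N.charpoly.map (Int.castRingHom ℝ)).Splits := by
      rw [hmap]
      exact Splits.prod fun _ _ => Splits.X_sub_C _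
    have hdeg : N.charpoly.natDegree ≤ n := by
      rw [Matrix.charpoly_natDegree_eq_dim]
      simp
    have hbd : ∀ z ∈ (N.charpoly.map (Int.castRingHom ℝ)).roots, ‖z‖ ≤ C := by
      intro z hz
      rw [hroots, Multiset.mem_map] at hz
      obtain ⟨i, -, rfl⟩ := hz
      exact hd i
    unfold rootSet0
    simp only [Set.mem_iUnion]
    refine ⟨N.charpoly, ⟨hdeg, fun i => ?_⟩, ?_⟩
    · have h1 := Polynomial.coeff_bdd_of_roots_le (Int.castRingHom ℝ) (Matrix.charpoly_monic N)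
        hsplit hdeg hbd i
      rw [Set.mem_Icc, ← abs_le, ← @Int.cast_le ℝ]
      refine (Eq.trans_le ?_ h1).trans (Nat.le_ceil _)
      rw [coeff_map, eq_intCast, Real.norm_eq_abs, Int.cast_abs]
    · rw [Finset.mem_coe, Multiset.mem_toFinset, hroots, Multiset.mem_map]
      exact ⟨j, Finset.mem_univ_val j, rfl⟩

lemma stab_subset_bigStab {C : ℝ} {d : Fin n → ℝ} (hd : ∀ j, |d j| ≤ C)
    (hirr : ∀ j, Irrational (d j)) :
    stab (Matrix.diagonal d) ⊆ bigStab n (rootSetIrr n C) := by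
  classical
  intro x hx
  unfold bigStab
  simp only [Set.mem_iUnion]
  refine ⟨d, ?_, hx⟩
  rw [Fintype.mem_piFinset]
  intro j
  unfold rootSetIrr
  rw [Finset.mem_filter, Set.Finite.mem_toFinset]
  exact ⟨mem_rootSet0_of_stab hd hx j, hirr j⟩

/-- General obstruction, bounded-element form. -/
theorem obstruction_bounded {ι : Type*} (d : ι → OrderDatum n) (C : ℝ)
    (h : ∀ i, ∃ γ ∈ (d i).O, (∀ q : ℚ, γ ≠ (q : (d i).K)) ∧ ∀ j, |(d i).σ j γ| ≤ C)
    (m : Measure (LatX n)) [IsProbabilityMeasure m] [SMulInvariantMeasure (SLR n) (LatX n) m] :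
    ∃ f : C(LatX n, ℝ), HasCompactSupport f ∧ (∀ x, f x ∈ Set.Icc (0 : ℝ) 1) ∧
      1 / 2 < ∫ x, f x ∂m ∧
      ∀ i, ∀ μ : Measure (LatX n), μ (d i).packetᶜ = 0 → ∫ x, f x ∂μ = 0 := by
  rcases isEmpty_or_nonempty ι with hι | ⟨⟨i0⟩⟩
  · obtain ⟨f, hfc, hf01, -, hfm⟩ := exists_test m (Z := ∅) isClosed_empty (by simp)
    exact ⟨f, hfc, hf01, hfm, fun i => (hι.false i).elim⟩
  have hn : 0 < n := pos_of_datum (d i0)
  obtain ⟨f, hfc, hf01, hf0, hfm⟩ := exists_test m (isClosed_bigStab (n := n) (rootSetIrr n C))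
    (measure_bigStab m ⟨0, hn⟩ _ (fun r hr => irrational_of_mem_rootSetIrr hr))
  refine ⟨f, hfc, hf01, hfm, ?_⟩
  intro i μ hμ
  obtain ⟨γ, hγ, hγq, hγC⟩ := h i
  have hirr : ∀ j, Irrational ((d i).σ j γ) := by
    intro j
    rintro ⟨q, hq⟩
    apply hγq q
    apply ((d i).σ j).injective
    rw [← hq]
    simp
  apply integral_eq_zero_of_ae
  have hsub : {x | ¬ (f x = (0 : LatX n → ℝ) x)} ⊆ (d i).packetᶜ := by
    intro x hx hxp
    exact hx (hf0 x (stab_subset_bigStab hγC hirr (packet_subset_stab (d i) γ hγ hxp)))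
  exact measure_mono_null hsub hμ

end Vale.Agent.P007
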