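import Vale.Agent.P007.Eisen

namespace Vale.Agent.P007

open Polynomial Finset

lemma gZ_map_real (a : ℕ) :
    (gZ a).map (Int.castRingHom ℝ) = prodPoly (4 : ℝ) a - C (-2) := by
  unfold gZ
  rw [Polynomial.map_add, prodPoly_map, Polynomial.map_C, C_neg, sub_neg_eq_add]
  simp

lemma hZ_map_real (a b : ℕ) :
    (hZ a b).map (Int.castRingHom ℝ) = prodPoly (4 * ((a : ℝ) + 1)) b := by
  unfold hZ
  rw [prodPoly_map]
  simp

lemma two_pow_ge_four {a : ℕ} (ha : 2 ≤ a) : (4 : ℝ) ≤ 2 ^ a := by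
  calc (4 : ℝ) = 2 ^ 2 := by norm_num
    _ ≤ 2 ^ a := pow_le_pow_right₀ (by norm_num) ha

lemma gZ_map_real_splits {a : ℕ} (ha : 2 ≤ a) : ((gZ a).map (Int.castRingHom ℝ)).Splits := by
  rw [gZ_map_real]
  apply prodPoly_sub_C_splits (by norm_num)
  have := two_pow_ge_four ha
  norm_num
  linarith

/-- Real zeros of `g` lie strictly between `2` and `4a+2`. -/
lemma gZ_root_bound {a : ℕ} (ha : 2 ≤ a) {r : ℝ} (hr : prodFun 4 a r = -2) :
    2 < r ∧ r < 4 * a + 2 := by
  have h4 := two_pow_ge_four ha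
  have key : ¬ (∀ i ∈ range a, (4 : ℝ) / 2 ≤ |r - 4 * ((i : ℝ) + 1)|) := by
    intro h
    have := prodFun_abs_ge (by norm_num : (0 : ℝ) ≤ 4) a r h
    rw [hr] at this
    norm_num at this
    linarith
  constructor
  · by_contra hcon
    push Not at hcon
    apply key
    intro i _
    have hi : (0 : ℝ) ≤ i := Nat.cast_nonneg i
    rw [abs_of_nonpos (by linarith)]
    linarith
  · by_contra hcon
    push Not at hcon
    apply key
    intro i hi
    have hi' : (i : ℝ) + 1 ≤ a := by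
      have : i < a := by simpa using hi
      exact_mod_cast this
    rw [abs_of_nonneg (by linarith)]
    linarith

lemma fC_map_real_splits {a b : ℕ} (ha : 2 ≤ a) (hb : 2 ≤ b) :
    ((fC a b).map (Int.castRingHom ℝ)).Splits := by
  unfold fC
  rw [Polynomial.map_comp]
  have hs := gZ_map_real_splits ha
  have hm : ((gZ a).map (Int.castRingHom ℝ)).Monic := (gZ_monic (by omega)).map _
  rw [hs.eq_prod_roots_of_monic hm, multiset_prod_comp, Multiset.map_map]
  apply Splits.multisetProd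
  intro p hp
  rw [Multiset.mem_map] at hp
  obtain ⟨r, hr, rfl⟩ := hp
  have hr' : prodFun 4 a r = -2 := by
    rw [mem_roots hm.ne_zero, IsRoot.def, gZ_map_real, eval_sub, eval_C, prodPoly_eval] at hr
    linarith
  obtain ⟨h1, h2⟩ := gZ_root_bound ha hr'
  simp only [Function.comp, sub_comp, X_comp, C_comp]
  rw [hZ_map_real]
  have haR : (0 : ℝ) ≤ a := Nat.cast_nonneg a
  apply prodPoly_sub_C_splits (by positivity)
  rw [abs_of_pos (by linarith)]
  have e : 4 * ((a : ℝ) + 1) / 2 = 2 * ((a : ℝ) + 1) := by ring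
  rw [e]
  calc r < 4 * a + 2 := h2
    _ ≤ (2 * ((a : ℝ) + 1)) ^ 2 := by nlinarith
    _ ≤ (2 * ((a : ℝ) + 1)) ^ b := pow_le_pow_right₀ (by linarith) hb

end Vale.Agent.P007
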