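import Vale.Agent.P007.Adapted
import Vale.Agent.P007.SplitC
import Vale.Agent.P007.Bounded

namespace Vale.Agent.P007

open Polynomial MeasureTheory Filter

variable (a b : ℕ) [ha : Fact (2 ≤ a)] [hb : Fact (2 ≤ b)]

/-- `f = g ∘ h` over `ℚ`. -/
noncomputable def fQC : ℚ[X] := (fC a b).map (Int.castRingHom ℚ)

include ha in
lemma a_pos : 0 < a := lt_of_lt_of_le (by norm_num) ha.out

include hb in
lemma b_pos : 0 < b := lt_of_lt_of_le (by norm_num) hb.out

instance instFactIrrC : Fact (Irreducible (fQC a b)) :=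
  ⟨(Polynomial.IsPrimitive.Int.irreducible_iff_irreducible_map_cast
    (fC_monic (a_pos a) (b_pos b)).isPrimitive).mp (fC_irreducible (a_pos a) (b_pos b))⟩

lemma fQC_monic : (fQC a b).Monic := (fC_monic (a_pos a) (b_pos b)).map _

lemma fQC_natDegree : (fQC a b).natDegree = a * b := by
  unfold fQC
  rw [(fC_monic (a_pos a) (b_pos b)).natDegree_map, fC_natDegree (a_pos a)]

lemma fQC_splits : ((fQC a b).map (algebraMap ℚ ℝ)).Splits := by
  unfold fQC
  rw [Polynomial.map_map]
  have : (algebraMap ℚ ℝ).comp (Int.castRingHom ℚ) = Int.castRingHom ℝ := RingHom.ext_int _ _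
  rw [this]
  exact fC_map_real_splits ha.out hb.out

/-- The totally real field of degree `a b`. -/
abbrev KC := AdjoinRoot (fQC a b)

/-- Its generator. -/
noncomputable def αC : KC a b := AdjoinRoot.root (fQC a b)

lemma aeval_αC : aeval (αC a b) (fC a b) = 0 := by
  have h := AdjoinRoot.eval₂_root (fQC a b)
  have key : ∀ p : ℚ[X], p = (fC a b).map (Int.castRingHom ℚ) →
      p.eval₂ (AdjoinRoot.of (fQC a b)) (AdjoinRoot.root (fQC a b)) =
        aeval (αC a b) (fC a b) := by
    rintro p rfl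
    rw [eval₂_map, aeval_def]
    congr 1
  rw [← key (fQC a b) rfl]
  exact h

/-- The element `γ = h(α)` generating the subfield of degree `a`. -/
noncomputable def γC : KC a b := aeval (αC a b) (hZ a b)

lemma aeval_γC : aeval (γC a b) (gZ a) = 0 := by
  unfold γC
  rw [← aeval_comp]
  exact aeval_αC a b

/-- The adapted family indexed by `Fin (a b)`. -/
noncomputable def VC : Fin (a * b) → KC a b :=
  adaptedFam (αC a b) (hZ a b) a b ∘ finProdFinEquiv.symm

/-- The indices of pure powers of `γ`. -/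
def JC : Fin (a * b) → Prop := pureIdx a b ∘ finProdFinEquiv.symm

instance : DecidablePred (JC a b) := fun i =>
  inferInstanceAs (Decidable (pureIdx a b (finProdFinEquiv.symm i)))

lemma range_VC : Set.range (VC a b) = Set.range (adaptedFam (αC a b) (hZ a b) a b) := by
  unfold VC
  exact EquivLike.range_comp _ _

lemma image_VC : VC a b '' {i | JC a b i} =
    adaptedFam (αC a b) (hZ a b) a b '' {p | pureIdx a b p} := by
  ext x
  constructor
  · rintro ⟨i, hi, rfl⟩
    exact ⟨finProdFinEquiv.symm i, hi, rfl⟩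
  · rintro ⟨p, hp, rfl⟩
    refine ⟨finProdFinEquiv p, ?_, ?_⟩
    · show pureIdx a b (finProdFinEquiv.symm (finProdFinEquiv p))
      rw [Equiv.symm_apply_apply]
      exact hp
    · simp [VC]

lemma VC_mul_mem (i k : Fin (a * b)) :
    VC a b i * VC a b k ∈ Submodule.span ℤ (Set.range (VC a b)) := by
  rw [range_VC]
  exact adapted_mul_mem (αC a b) (gZ a) (hZ a b) (gZ_monic (a_pos a)) (gZ_natDegree (a_pos a))
    (hZ_monic a b) (hZ_natDegree a b) (a_pos a) (b_pos b) (aeval_γC a b) _ _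

lemma VC_pure_mul_mem (i k : Fin (a * b)) (hi : JC a b i) (hk : JC a b k) :
    VC a b i * VC a b k ∈ Submodule.span ℤ (VC a b '' {i | JC a b i}) := by
  rw [image_VC]
  exact adapted_pure_mul_mem (αC a b) (gZ a) (hZ a b) (gZ_monic (a_pos a))
    (gZ_natDegree (a_pos a)) (a_pos a) (b_pos b) (aeval_γC a b) _ _ hi hk

lemma one_mem_VC : (1 : KC a b) ∈ Submodule.span ℤ (VC a b '' {i | JC a b i}) := by
  rw [image_VC]
  exact one_mem_pure (αC a b) (hZ a b) (a_pos a) (b_pos b)

lemma finrank_KC : Module.finrank ℚ (KC a b) = a * b := by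
  rw [finrank_adjoinRoot, fQC_natDegree]

lemma span_VC_top : ⊤ ≤ Submodule.span ℚ (Set.range (VC a b)) := by
  rw [← (pbGen (fQC a b)).basis.span_eq, Submodule.span_le]
  rintro _ ⟨i, rfl⟩
  rw [PowerBasis.coe_basis, pbGen_gen]
  have h1 := aeval_alpha_mem (αC a b) (gZ a) (hZ a b) (gZ_monic (a_pos a))
    (gZ_natDegree (a_pos a)) (hZ_monic a b) (hZ_natDegree a b) (a_pos a) (b_pos b)
    (aeval_γC a b) (X ^ (i : ℕ))
  rw [← range_VC] at h1
  simp only [map_pow, aeval_X] at h1
  exact Submodule.span_subset_span ℤ ℚ _ h1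

lemma linInd_VC : LinearIndependent ℚ (VC a b) :=
  linearIndependent_of_top_le_span_of_card_eq_finrank (span_VC_top a b)
    (by rw [finrank_KC]; simp)

lemma discr_VC_ne : Algebra.discr ℚ (VC a b) ≠ 0 := by
  have : Nonempty (Fin (a * b)) := ⟨⟨0, Nat.mul_pos (a_pos a) (b_pos b)⟩⟩
  have h := Algebra.discr_not_zero_of_basis ℚ
    (basisOfLinearIndependentOfCardEqFinrank (linInd_VC a b) (by rw [finrank_KC]; simp))
  rwa [coe_basisOfLinearIndependentOfCardEqFinrank] at h

/-- The number of basis vectors that get scaled. -/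
def kC : ℕ := (Finset.univ.filter (fun i => ¬ JC a b i)).card

lemma kC_pos : 0 < kC a b := by
  unfold kC
  rw [Finset.card_pos]
  refine ⟨finProdFinEquiv (⟨0, a_pos a⟩, ⟨1, hb.out⟩), ?_⟩
  rw [Finset.mem_filter]
  refine ⟨Finset.mem_univ _, ?_⟩
  show ¬ pureIdx a b (finProdFinEquiv.symm (finProdFinEquiv _))
  rw [Equiv.symm_apply_apply]
  simp [pureIdx]

lemma linInd_scaled {t : ℤ} (ht : t ≠ 0) : LinearIndependent ℤ (scaled (VC a b) (JC a b) t) := by
  have h1 : LinearIndependent ℚ (scaled (VC a b) (JC a b) t) := by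
    by_contra h
    have := Algebra.discr_zero_of_not_linearIndependent ℚ h
    rw [discr_scaled] at this
    have ht' : (((t : ℚ) ^ (Finset.univ.filter (fun i => ¬ JC a b i)).card) ^ 2) ≠ 0 :=
      pow_ne_zero _ (pow_ne_zero _ (by exact_mod_cast ht))
    exact (mul_ne_zero ht' (discr_VC_ne a b)) this
  exact h1.restrict_scalars (by
    intro x y hxy
    simpa using hxy)

/-- An ordering of the real embeddings. -/
noncomputable def σC : Fin (a * b) ≃ (KC a b →+* ℝ) :=
  have hcard : Nat.card (KC a b →+* ℝ) = a * b := by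
    rw [card_emb_adjoinRoot (fQC a b) (fQC_monic a b) (fQC_splits a b), fQC_natDegree]
  haveI : Finite (KC a b →+* ℝ) := Nat.finite_of_card_ne_zero (by
    rw [hcard]
    exact (Nat.mul_pos (a_pos a) (b_pos b)).ne')
  (Finite.equivFinOfCardEq hcard).symm

/-- The data: the order `ℤ[γ] + t ℤ[α]`, `t = i + 1`. -/
noncomputable def datumC (i : ℕ) : OrderDatum (a * b) where
  K := KC a b
  deg := finrank_KC a b
  σ := σC a b
  O := scaledOrder (VC a b) (JC a b) ((i : ℤ) + 1) (VC_mul_mem a b) (VC_pure_mul_mem a b)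
    (one_mem_VC a b)
  b := scaled (VC a b) (JC a b) ((i : ℤ) + 1)
  b_indep := linInd_scaled a b (by positivity)
  b_span := fun x => mem_scaledOrder _ _ _ _ _ _ x

lemma disc_datumC (i : ℕ) :
    (datumC a b i).disc = (((i : ℚ) + 1) ^ kC a b) ^ 2 * Algebra.discr ℚ (VC a b) := by
  have e : (datumC a b i).disc = Algebra.discr ℚ (scaled (VC a b) (JC a b) ((i : ℤ) + 1)) := rfl
  rw [e, discr_scaled]
  unfold kC
  push_cast
  ring

lemma tendsto_disc_datumC : Tendsto (fun i => |(datumC a b i).disc|) atTop atTop := by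
  have h0 : 0 < |Algebra.discr ℚ (VC a b)| := abs_pos.mpr (discr_VC_ne a b)
  have h1 : ∀ i : ℕ, |(datumC a b i).disc| =
      ((i : ℚ) + 1) ^ (kC a b * 2) * |Algebra.discr ℚ (VC a b)| := by
    intro i
    rw [disc_datumC, abs_mul, abs_of_nonneg (by positivity), pow_mul]
  simp only [h1]
  apply Tendsto.atTop_mul_const h0
  have h2 : Tendsto (fun i : ℕ => (i : ℚ) + 1) atTop atTop :=
    tendsto_atTop_add_const_right _ _ tendsto_natCast_atTop_atTop
  exact (tendsto_pow_atTop (Nat.mul_pos (kC_pos a b) (by norm_num)).ne').comp h2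

lemma γC_eq_VC : γC a b = VC a b (finProdFinEquiv (⟨1, ha.out⟩, ⟨0, b_pos b⟩)) := by
  simp [VC, adaptedFam, γC]
  rfl

lemma one_eq_VC : (1 : KC a b) = VC a b (finProdFinEquiv (⟨0, a_pos a⟩, ⟨0, b_pos b⟩)) := by
  simp [VC, adaptedFam]

lemma γC_mem (t : ℤ) : γC a b ∈ scaledOrder (VC a b) (JC a b) t (VC_mul_mem a b)
    (VC_pure_mul_mem a b) (one_mem_VC a b) := by
  rw [mem_scaledOrder]
  apply A_le_span
  apply Submodule.subset_span
  refine ⟨finProdFinEquiv (⟨1, ha.out⟩, ⟨0, b_pos b⟩), ?_, (γC_eq_VC a b).symm⟩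
  show pureIdx a b (finProdFinEquiv.symm (finProdFinEquiv _))
  rw [Equiv.symm_apply_apply]
  rfl

lemma γC_not_rat (q : ℚ) : γC a b ≠ (q : KC a b) := by
  intro h
  have hli := linInd_VC a b
  set i1 := finProdFinEquiv ((⟨1, ha.out⟩ : Fin a), (⟨0, b_pos b⟩ : Fin b)) with hi1
  set i0 := finProdFinEquiv ((⟨0, a_pos a⟩ : Fin a), (⟨0, b_pos b⟩ : Fin b)) with hi0
  have hne : i1 ≠ i0 := by
    intro heq
    have := finProdFinEquiv.injective heq
    simp at this
  rw [Fintype.linearIndependent_iff] at hli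
  have h1 := hli (fun i => (if i = i1 then (1 : ℚ) else 0) - (if i = i0 then q else 0)) (by
    simp only [sub_smul, Finset.sum_sub_distrib, ite_smul, zero_smul, Finset.sum_ite_eq',
      Finset.mem_univ, if_true, one_smul]
    rw [hi1, ← γC_eq_VC, hi0, ← one_eq_VC, h]
    simp [Algebra.smul_def]) i1
  simp [hne] at h1

lemma emb_γC_bound (φ : KC a b →+* ℝ) : |φ (γC a b)| ≤ 4 * (a : ℝ) + 2 := by
  have h1 : aeval (φ (γC a b)) (gZ a) = 0 := by
    have := Polynomial.aeval_algHom_apply φ.toIntAlgHom (γC a b) (gZ a)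
    rw [aeval_γC, map_zero] at this
    exact this
  have h2 : prodFun 4 a (φ (γC a b)) = -2 := by
    rw [aeval_def, eval₂_eq_eval_map] at h1
    have e : algebraMap ℤ ℝ = Int.castRingHom ℝ := rfl
    rw [e, gZ_map_real, eval_sub, eval_C, prodPoly_eval] at h1
    linarith
  obtain ⟨h3, h4⟩ := gZ_root_bound ha.out h2
  rw [abs_of_pos (by linarith)]
  exact h4.le

/-- The counterexample in degree `a b`. -/
theorem composite_counterexample_aux :
    ∃ d : ℕ → OrderDatum (a * b),
      Tendsto (fun i => |(d i).disc|) atTop atTop ∧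
      (∀ i, (d i).packet.Nonempty) ∧
      ∀ (m : Measure (LatX (a * b))) [IsProbabilityMeasure m]
        [SMulInvariantMeasure (SLR (a * b)) (LatX (a * b)) m],
        ∃ f : C(LatX (a * b), ℝ), HasCompactSupport f ∧ (∀ x, f x ∈ Set.Icc (0 : ℝ) 1) ∧
          1 / 2 < ∫ x, f x ∂m ∧
          ∀ i, ∀ μ : Measure (LatX (a * b)), μ (d i).packetᶜ = 0 → ∫ x, f x ∂μ = 0 := by
  refine ⟨datumC a b, tendsto_disc_datumC a b, fun i => packet_nonempty _, ?_⟩
  intro m _ _
  apply obstruction_bounded (datumC a b) (4 * (a : ℝ) + 2)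
  intro i
  exact ⟨γC a b, γC_mem a b _, γC_not_rat a b, fun j => emb_γC_bound a b _⟩

end Vale.Agent.P007
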