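import Vale.Agent.P007.Topo

namespace Vale.Agent.P007

open Matrix MeasureTheory Topology Set

variable {n : ℕ}

/-- A real matrix all of whose entries are integers. -/
def IsIntMat (M : Matrix (Fin n) (Fin n) ℝ) : Prop :=
  ∃ N : Matrix (Fin n) (Fin n) ℤ, M = N.map (Int.cast : ℤ → ℝ)

lemma IsIntMat.mul {A B : Matrix (Fin n) (Fin n) ℝ} (hA : IsIntMat A) (hB : IsIntMat B) :
    IsIntMat (A * B) := by
  obtain ⟨a, rfl⟩ := hA
  obtain ⟨b, rfl⟩ := hB
  refine ⟨a * b, ?_⟩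
  have := Matrix.map_mul (L := a) (M := b) (f := Int.castRingHom ℝ)
  simpa using this.symm

lemma IsIntMat.sub {A B : Matrix (Fin n) (Fin n) ℝ} (hA : IsIntMat A) (hB : IsIntMat B) :
    IsIntMat (A - B) := by
  obtain ⟨a, rfl⟩ := hA
  obtain ⟨b, rfl⟩ := hB
  refine ⟨a - b, ?_⟩
  ext i j
  simp

lemma isClosed_isIntMat : IsClosed {M : Matrix (Fin n) (Fin n) ℝ | IsIntMat M} := by
  have h : IsClosedEmbedding (fun N : Matrix (Fin n) (Fin n) ℤ => N.map (Int.cast : ℤ → ℝ)) :=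
    Int.isClosedEmbedding_coe_real.matrix_map
  have : {M : Matrix (Fin n) (Fin n) ℝ | IsIntMat M} =
      Set.range (fun N : Matrix (Fin n) (Fin n) ℤ => N.map (Int.cast : ℤ → ℝ)) := by
    ext M
    constructor
    · rintro ⟨N, rfl⟩
      exact ⟨N, rfl⟩
    · rintro ⟨N, rfl⟩
      exact ⟨N, rfl⟩
  rw [this]
  exact h.isClosed_range

lemma inv_mul_coe (g : SLR n) : ((g⁻¹ : SLR n) : Matrix (Fin n) (Fin n) ℝ) * g.1 = 1 := by
  rw [← Matrix.SpecialLinearGroup.coe_mul, inv_mul_cancel, Matrix.SpecialLinearGroup.coe_one]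

lemma mul_inv_coe (g : SLR n) : g.1 * ((g⁻¹ : SLR n) : Matrix (Fin n) (Fin n) ℝ) = 1 := by
  rw [← Matrix.SpecialLinearGroup.coe_mul, mul_inv_cancel, Matrix.SpecialLinearGroup.coe_one]

lemma isIntMat_of_mem_SLZ {γ : SLR n} (h : γ ∈ SLZ n) : IsIntMat γ.1 := by
  obtain ⟨δ, rfl⟩ := h
  exact ⟨δ.1, by ext i j; simp⟩

/-- The set of `g` with `g⁻¹ T g` integral. -/
def stabPre (T : Matrix (Fin n) (Fin n) ℝ) : Set (SLR n) :=
  {g | IsIntMat (((g⁻¹ : SLR n) : Matrix (Fin n) (Fin n) ℝ) * T * g.1)}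

/-- The set of lattices `g ℤ^n` stable under `T`. -/
def stab (T : Matrix (Fin n) (Fin n) ℝ) : Set (LatX n) :=
  (fun g : SLR n => (g : LatX n)) '' stabPre T

lemma preimage_stab (T : Matrix (Fin n) (Fin n) ℝ) :
    (fun g : SLR n => (g : LatX n)) ⁻¹' stab T = stabPre T := by
  ext g
  constructor
  · rintro ⟨h, hh, hgh⟩
    have hgh' : (h : LatX n) = (g : LatX n) := hgh
    rw [QuotientGroup.eq] at hgh'
    set γ : SLR n := h⁻¹ * g with hγ
    have hg : g = h * γ := by simp [hγ]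
    have h1 : IsIntMat γ.1 := isIntMat_of_mem_SLZ hgh'
    have h2 : IsIntMat (γ⁻¹ : SLR n).1 := isIntMat_of_mem_SLZ ((SLZ n).inv_mem hgh')
    have h3 : ((g⁻¹ : SLR n) : Matrix (Fin n) (Fin n) ℝ) * T * g.1 =
        (γ⁻¹ : SLR n).1 * (((h⁻¹ : SLR n) : Matrix (Fin n) (Fin n) ℝ) * T * h.1) * γ.1 := by
      rw [hg]
      simp only [_root_.mul_inv_rev, Matrix.SpecialLinearGroup.coe_mul, Matrix.mul_assoc]
    show IsIntMat _
    rw [h3]
    exact (h2.mul hh).mul h1
  · intro hg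
    exact ⟨g, hg, rfl⟩

lemma mem_stab_iff (T : Matrix (Fin n) (Fin n) ℝ) (g : SLR n) :
    (g : LatX n) ∈ stab T ↔ g ∈ stabPre T := by
  have := preimage_stab T
  exact Set.ext_iff.mp this g

lemma isClosed_stabPre (T : Matrix (Fin n) (Fin n) ℝ) : IsClosed (stabPre T) := by
  have hc : Continuous (fun g : SLR n =>
      ((g⁻¹ : SLR n) : Matrix (Fin n) (Fin n) ℝ) * T * g.1) := by
    have h1 : Continuous (fun g : SLR n => ((g⁻¹ : SLR n) : Matrix (Fin n) (Fin n) ℝ)) :=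
      continuous_subtype_val.comp continuous_inv
    have h2 : Continuous (fun g : SLR n => (g : Matrix (Fin n) (Fin n) ℝ)) :=
      continuous_subtype_val
    exact (h1.mul continuous_const).mul h2
  exact isClosed_isIntMat.preimage hc

lemma isClosed_stab (T : Matrix (Fin n) (Fin n) ℝ) : IsClosed (stab T) := by
  have hq : IsQuotientMap (fun g : SLR n => (g : LatX n)) := isQuotientMap_quotient_mk'
  rw [← hq.isClosed_preimage, preimage_stab]
  exact isClosed_stabPre T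

lemma preimage_smul_stab (h : SLR n) (T : Matrix (Fin n) (Fin n) ℝ) :
    (fun x : LatX n => h • x) ⁻¹' stab T =
      stab (((h⁻¹ : SLR n) : Matrix (Fin n) (Fin n) ℝ) * T * h.1) := by
  ext x
  induction x using QuotientGroup.induction_on with
  | H g =>
    have e : h • (g : LatX n) = ((h * g : SLR n) : LatX n) := rfl
    rw [Set.mem_preimage, e, mem_stab_iff, mem_stab_iff]
    show IsIntMat _ ↔ IsIntMat _
    simp only [_root_.mul_inv_rev, Matrix.SpecialLinearGroup.coe_mul, Matrix.mul_assoc]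

end Vale.Agent.P007
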