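import Mathlib

namespace Vale.Agent.P007

open Matrix MeasureTheory

/-- The group `SL_n(ℝ)`. -/
abbrev SLR (n : ℕ) := Matrix.SpecialLinearGroup (Fin n) ℝ

/-- The subgroup `SL_n(ℤ)` of `SL_n(ℝ)`. -/
def SLZ (n : ℕ) : Subgroup (SLR n) :=
  (Matrix.SpecialLinearGroup.map (Int.castRingHom ℝ)).range

/-- The space of covolume-one lattices in `ℝ^n`, as `SL_n(ℝ) / SL_n(ℤ)`:
the coset of `g` is the lattice `g ℤ^n`. -/
abbrev LatX (n : ℕ) := SLR n ⧸ SLZ n

instance instMeasurableSpaceX (n : ℕ) : MeasurableSpace (LatX n) := borel _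

instance instBorelSpaceX (n : ℕ) : BorelSpace (LatX n) := ⟨rfl⟩

/-- The lattice `g ℤ^n` in `ℝ^n`. -/
def latticeOf {n : ℕ} (g : SLR n) : Set (Fin n → ℝ) :=
  {v | ∃ z : Fin n → ℤ, v = (g : Matrix (Fin n) (Fin n) ℝ) *ᵥ (fun i => (z i : ℝ))}

/-- A totally real number field `K` of degree `n`, with an ordering `σ` of its `n` real embeddings,
and an order `O` of `K`: a subring which is the `ℤ`-span of `n` elements `b_i` that are linearly
independent over `ℤ`. -/
structure OrderDatum (n : ℕ) where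
  K : Type
  [instField : Field K]
  [instNumberField : NumberField K]
  deg : Module.finrank ℚ K = n
  σ : Fin n ≃ (K →+* ℝ)
  O : Subring K
  b : Fin n → K
  b_indep : LinearIndependent ℤ b
  b_span : ∀ x : K, x ∈ O ↔ x ∈ Submodule.span ℤ (Set.range b)

attribute [instance] OrderDatum.instField OrderDatum.instNumberField

/-- The discriminant of the order: `det (Tr_{K/ℚ} (b_i b_j))` for its `ℤ`-basis `b`. -/
noncomputable def OrderDatum.disc {n : ℕ} (d : OrderDatum n) : ℚ :=
  Algebra.discr ℚ d.b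

/-- An additive subgroup of `K` stable under multiplication by the order `O`. -/
def OrderDatum.IsOModule {n : ℕ} (d : OrderDatum n) (I : Submodule ℤ d.K) : Prop :=
  ∀ a ∈ d.O, ∀ y ∈ I, a * y ∈ I

/-- `I` is an invertible fractional `O`-ideal: an `O`-submodule of `K` with `I J = O` for some
`O`-submodule `J` of `K` (such `I`, `J` are automatically nonzero and finitely generated). -/
def OrderDatum.IsInvertibleIdeal {n : ℕ} (d : OrderDatum n) (I : Submodule ℤ d.K) : Prop :=
  d.IsOModule I ∧ ∃ J : Submodule ℤ d.K, d.IsOModule J ∧ ∀ x : d.K, x ∈ I * J ↔ x ∈ d.O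

/-- The set `c · w · a · σ(I)` in `ℝ^n`, for `w = diag(ε_j)` and `a = diag(exp u_j)`. -/
def OrderDatum.scaledImage {n : ℕ} (d : OrderDatum n) (I : Submodule ℤ d.K) (c : ℝ)
    (ε u : Fin n → ℝ) : Set (Fin n → ℝ) :=
  {v | ∃ y ∈ I, ∀ j, v j = c * ε j * Real.exp (u j) * d.σ j y}

/-- The union of the orbits of the packet of the order: all points `g SL_n(ℤ)` whose lattice is
`c · w · a · σ(I)`, with `I` an invertible fractional `O`-ideal, `w = diag(ε_j)` a sign matrix,
`a = diag(exp u_j)` with `∑ u_j = 0`, and `c > 0` (forced to be the covolume normalisation). -/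
def OrderDatum.packet {n : ℕ} (d : OrderDatum n) : Set (LatX n) :=
  {x | ∃ (g : SLR n) (I : Submodule ℤ d.K) (c : ℝ) (ε u : Fin n → ℝ),
      x = (g : LatX n) ∧ d.IsInvertibleIdeal I ∧ 0 < c ∧ (∀ j, ε j = 1 ∨ ε j = -1) ∧
      ∑ j, u j = 0 ∧ latticeOf g = d.scaledImage I c ε u}

/-- `m` is an `SL_n(ℝ)`-invariant Borel probability measure on the space of lattices. -/
def IsInvariantProb {n : ℕ} (m : Measure (LatX n)) : Prop :=
  IsProbabilityMeasure m ∧ SMulInvariantMeasure (SLR n) (LatX n) m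

end Vale.Agent.P007
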