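import Vale.Agent.P007.RealRoots

namespace Vale.Agent.P007

open Polynomial Finset

lemma prodPoly_succ {R : Type*} [CommRing R] (N : R) (b : ℕ) :
    prodPoly N (b + 1) = prodPoly N b * (X - C (N * ((b : R) + 1))) := by
  unfold prodPoly
  rw [Finset.prod_range_succ]

lemma prodPoly_eq_pow_add (N : ℤ) (hN : 4 ∣ N) (b : ℕ) :
    ∃ Q : ℤ[X], prodPoly N b = X ^ b + C 4 * Q := by
  obtain ⟨N', rfl⟩ := hN
  induction b with
  | zero => exact ⟨0, by simp [prodPoly]⟩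
  | succ b ih =>
    obtain ⟨Q, hQ⟩ := ih
    refine ⟨Q * X - C (N' * ((b : ℤ) + 1)) * X ^ b - C 4 * C (N' * ((b : ℤ) + 1)) * Q, ?_⟩
    rw [prodPoly_succ, hQ]
    have : (C (4 * N' * ((b : ℤ) + 1)) : ℤ[X]) = C 4 * C (N' * ((b : ℤ) + 1)) := by
      rw [← C_mul]; congr 1; ring
    rw [this]
    ring

lemma pow_add_four (u v : ℤ[X]) (a : ℕ) : ∃ w : ℤ[X], (u + C 4 * v) ^ a = u ^ a + C 4 * w := by
  induction a with
  | zero => exact ⟨0, by simp⟩
  | succ a ih =>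
    obtain ⟨w, hw⟩ := ih
    refine ⟨u ^ a * v + w * u + C 4 * w * v, ?_⟩
    rw [pow_succ, hw]
    ring

/-- Eisenstein at `2` for polynomials of the shape `X^n + 4 W + 2`. -/
lemma irreducible_of_shape {f W : ℤ[X]} {n : ℕ} (hn : 0 < n) (hmonic : f.Monic)
    (hdeg : f.natDegree = n) (hf : f = X ^ n + C 4 * W + C 2) : Irreducible f := by
  have hE : f.IsEisensteinAt (Ideal.span {(2 : ℤ)}) := by
    refine hmonic.isEisensteinAt_of_mem_of_notMem ?_ ?_ ?_
    · rw [Ne, Ideal.span_singleton_eq_top]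
      exact Int.prime_two.not_unit
    · intro k hk
      rw [hdeg] at hk
      rw [Ideal.mem_span_singleton, hf]
      simp only [coeff_add, coeff_X_pow, coeff_C_mul, coeff_C]
      rw [if_neg hk.ne]
      split_ifs
      · exact ⟨2 * W.coeff k + 1, by ring⟩
      · exact ⟨2 * W.coeff k, by ring⟩
    · rw [Ideal.span_singleton_pow, Ideal.mem_span_singleton, hf]
      simp only [coeff_add, coeff_X_pow, coeff_C_mul, coeff_C_zero]
      rw [if_neg hn.ne]
      rintro ⟨c, hc⟩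
      omega
  refine hE.irreducible ?_ hmonic.isPrimitive (by rw [hdeg]; exact hn)
  rw [Ideal.span_singleton_prime (by norm_num)]
  exact Int.prime_two

/-- `g = ∏_{i<a} (Y - 4(i+1)) + 2`. -/
noncomputable def gZ (a : ℕ) : ℤ[X] := prodPoly (4 : ℤ) a + C 2

/-- `h = ∏_{i<b} (X - 4(a+1)(i+1))`. -/
noncomputable def hZ (a b : ℕ) : ℤ[X] := prodPoly (4 * ((a : ℤ) + 1)) b

/-- `f = g ∘ h`. -/
noncomputable def fC (a b : ℕ) : ℤ[X] := (gZ a).comp (hZ a b)

lemma gZ_monic {a : ℕ} (ha : 0 < a) : (gZ a).Monic := by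
  unfold gZ
  apply (prodPoly_monic _ _).add_of_left
  rw [degree_eq_natDegree (prodPoly_monic _ _).ne_zero, prodPoly_natDegree]
  exact lt_of_le_of_lt degree_C_le (by exact_mod_cast ha)

lemma gZ_natDegree {a : ℕ} (ha : 0 < a) : (gZ a).natDegree = a := by
  unfold gZ
  rw [natDegree_add_eq_left_of_natDegree_lt, prodPoly_natDegree]
  rw [prodPoly_natDegree, natDegree_C]
  exact ha

lemma hZ_monic (a b : ℕ) : (hZ a b).Monic := prodPoly_monic _ _

lemma hZ_natDegree (a b : ℕ) : (hZ a b).natDegree = b := prodPoly_natDegree _ _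

lemma fC_natDegree {a : ℕ} (ha : 0 < a) (b : ℕ) : (fC a b).natDegree = a * b := by
  unfold fC
  rw [natDegree_comp, gZ_natDegree ha, hZ_natDegree]

lemma fC_monic {a b : ℕ} (ha : 0 < a) (hb : 0 < b) : (fC a b).Monic := by
  unfold fC
  apply (gZ_monic ha).comp (hZ_monic a b)
  rw [hZ_natDegree]
  exact hb.ne'

lemma fC_shape (a b : ℕ) : ∃ W : ℤ[X], fC a b = X ^ (a * b) + C 4 * W + C 2 := by
  obtain ⟨Q1, h1⟩ := prodPoly_eq_pow_add 4 (dvd_refl _) a
  obtain ⟨Q2, h2⟩ := prodPoly_eq_pow_add (4 * ((a : ℤ) + 1)) (Dvd.intro _ rfl) b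
  obtain ⟨w, hw⟩ := pow_add_four (X ^ b) Q2 a
  refine ⟨w + Q1.comp (hZ a b), ?_⟩
  unfold fC gZ
  rw [h1]
  simp only [add_comp, mul_comp, C_comp, pow_comp, X_comp]
  have : hZ a b = X ^ b + C 4 * Q2 := h2
  rw [this, hw, ← pow_mul, mul_comm b a]
  ring

lemma fC_irreducible {a b : ℕ} (ha : 0 < a) (hb : 0 < b) : Irreducible (fC a b) := by
  obtain ⟨W, hW⟩ := fC_shape a b
  exact irreducible_of_shape (Nat.mul_pos ha hb) (fC_monic ha hb) (fC_natDegree ha b) hW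

end Vale.Agent.P007
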