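import Vale.Agent.P007.Quartic1

namespace Vale.Agent.P007

open Polynomial Matrix

noncomputable def pbq : PowerBasis ℚ Kq := AdjoinRoot.powerBasis fQ_ne_zero

lemma pbq_dim : pbq.dim = 4 := by
  simp [pbq, AdjoinRoot.powerBasis_dim, fQ_natDegree]

lemma pbq_gen : pbq.gen = αq := by
  simp [pbq, AdjoinRoot.powerBasis_gen, αq]

lemma finrank_Kq : Module.finrank ℚ Kq = 4 := by
  rw [pbq.finrank, pbq_dim]

lemma fQ_monic : fQ.Monic := fZ_monic.map _

lemma minpoly_gen : minpoly ℚ pbq.gen = fQ := by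
  rw [pbq_gen]
  refine (AdjoinRoot.minpoly_root fQ_ne_zero).trans ?_
  rw [fQ_monic.leadingCoeff]
  simp

lemma card_emb : Nat.card (Kq →+* ℝ) = 4 := by
  rw [Nat.card_congr (RingHom.equivRatAlgHom Kq ℝ),
    AlgHom.natCard_of_powerBasis pbq (Algebra.IsSeparable.isSeparable ℚ _)
      (by rw [minpoly_gen]; exact fQ_map_real_splits), pbq_dim]

/-- An ordering of the four real embeddings. -/
noncomputable def σq : Fin 4 ≃ (Kq →+* ℝ) :=
  haveI : Finite (Kq →+* ℝ) := Nat.finite_of_card_ne_zero (by rw [card_emb]; norm_num)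
  (Finite.equivFinOfCardEq card_emb).symm

/-- The order `ℤ + ℤ tα + ℤ α² + ℤ tα³`. -/
def Oq (t : ℤ) : Subring Kq where
  carrier := {x | ∃ a b c e : ℤ, x = a + b * (t * αq) + c * αq ^ 2 + e * (t * αq ^ 3)}
  mul_mem' := by
    rintro x y ⟨a, b, c, e, rfl⟩ ⟨A, B, C, E, rfl⟩
    refine ⟨a * A - 2 * (c * C + t ^ 2 * (b * E + e * B)) - 8 * (t ^ 2 * e * E),
      (a * B + b * A) - 2 * (c * E + e * C),
      a * C + c * A + t ^ 2 * b * B + 4 * (c * C + t ^ 2 * (b * E + e * B)) +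
        14 * (t ^ 2 * e * E),
      (a * E + e * A + b * C + c * B) + 4 * (c * E + e * C), ?_⟩
    push_cast
    linear_combination (((c : Kq) * C + t ^ 2 * (b * E + e * B) + 4 * (t ^ 2 * e * E)) +
      (t * (c * E + e * C)) * αq + (t ^ 2 * e * E) * αq ^ 2) * αq_pow_four
  one_mem' := ⟨1, 0, 0, 0, by simp⟩
  add_mem' := by
    rintro x y ⟨a, b, c, e, rfl⟩ ⟨A, B, C, E, rfl⟩
    exact ⟨a + A, b + B, c + C, e + E, by push_cast; ring⟩
  zero_mem' := ⟨0, 0, 0, 0, by simp⟩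
  neg_mem' := by
    rintro x ⟨a, b, c, e, rfl⟩
    exact ⟨-a, -b, -c, -e, by push_cast; ring⟩

lemma mem_Oq {t : ℤ} {x : Kq} : x ∈ Oq t ↔
    ∃ a b c e : ℤ, x = a + b * (t * αq) + c * αq ^ 2 + e * (t * αq ^ 3) := Iff.rfl

/-- The power basis `1, α, α², α³` indexed by `Fin 4`. -/
noncomputable def Bq : Module.Basis (Fin 4) ℚ Kq := pbq.basis.reindex (finCongr pbq_dim)

lemma Bq_apply (i : Fin 4) : Bq i = αq ^ (i : ℕ) := by
  simp [Bq, pbq_gen]

/-- scaling coefficients `1, t, 1, t`. -/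
def cq (t : ℤ) : Fin 4 → ℚ := ![1, t, 1, t]

/-- The vectors `1, tα, α², tα³`. -/
noncomputable def wq (t : ℤ) : Fin 4 → Kq := fun i => Bq i * algebraMap ℚ Kq (cq t i)

lemma wq_eq (t : ℤ) : wq t = Bq ᵥ* (Matrix.diagonal (cq t)).map (algebraMap ℚ Kq) := by
  ext i
  have : (Matrix.diagonal (cq t)).map (algebraMap ℚ Kq) =
      Matrix.diagonal (fun i => algebraMap ℚ Kq (cq t i)) := by
    rw [Matrix.diagonal_map (map_zero _)]
  rw [this, Matrix.vecMul_diagonal]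
  rfl

lemma discr_wq (t : ℤ) : Algebra.discr ℚ (wq t) = (t : ℚ) ^ 4 * Algebra.discr ℚ Bq := by
  rw [wq_eq, Algebra.discr_of_matrix_vecMul, Matrix.det_diagonal, Fin.prod_univ_four]
  have : cq t 0 * cq t 1 * cq t 2 * cq t 3 = (t : ℚ) ^ 2 := by
    simp [cq]
    ring
  rw [this]
  ring

lemma discr_Bq_ne : Algebra.discr ℚ Bq ≠ 0 := Algebra.discr_not_zero_of_basis ℚ Bq

lemma linInd_wq {t : ℤ} (ht : t ≠ 0) : LinearIndependent ℚ (wq t) := by
  by_contra h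
  have := Algebra.discr_zero_of_not_linearIndependent ℚ h
  rw [discr_wq] at this
  have ht' : (t : ℚ) ^ 4 ≠ 0 := pow_ne_zero _ (by exact_mod_cast ht)
  exact (mul_ne_zero ht' discr_Bq_ne) this

lemma wq_zero (t : ℤ) : wq t 0 = 1 := by simp [wq, Bq_apply, cq]
lemma wq_one (t : ℤ) : wq t 1 = t * αq := by simp [wq, Bq_apply, cq, mul_comm]
lemma wq_two (t : ℤ) : wq t 2 = αq ^ 2 := by simp [wq, Bq_apply, cq]
lemma wq_three (t : ℤ) : wq t 3 = t * αq ^ 3 := by simp [wq, Bq_apply, cq, mul_comm]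

lemma wq_mem (t : ℤ) (i : Fin 4) : wq t i ∈ Oq t := by
  rw [mem_Oq]
  fin_cases i
  · exact ⟨1, 0, 0, 0, by simp [wq_zero]⟩
  · exact ⟨0, 1, 0, 0, by simp [wq_one]⟩
  · exact ⟨0, 0, 1, 0, by simp [wq_two]⟩
  · exact ⟨0, 0, 0, 1, by simp [wq_three]⟩

lemma linInd_wq_int {t : ℤ} (ht : t ≠ 0) : LinearIndependent ℤ (wq t) :=
  (linInd_wq ht).restrict_scalars (by
    intro a b hab
    simpa using hab)

lemma span_wq (t : ℤ) (x : Kq) : x ∈ Oq t ↔ x ∈ Submodule.span ℤ (Set.range (wq t)) := by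
  rw [Submodule.mem_span_range_iff_exists_fun, mem_Oq]
  constructor
  · rintro ⟨a, b, c, e, rfl⟩
    refine ⟨![a, b, c, e], ?_⟩
    rw [Fin.sum_univ_four]
    simp [wq_zero, wq_one, wq_two, wq_three]
  · rintro ⟨z, rfl⟩
    refine ⟨z 0, z 1, z 2, z 3, ?_⟩
    rw [Fin.sum_univ_four]
    simp [wq_zero, wq_one, wq_two, wq_three]

/-- The data: the field `ℚ(√(2+√2))` with the order `ℤ + ℤ tα + ℤ α² + ℤ tα³`, `t = i + 1`. -/
noncomputable def datumQ (i : ℕ) : OrderDatum 4 where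
  K := Kq
  deg := finrank_Kq
  σ := σq
  O := Oq ((i : ℤ) + 1)
  b := wq ((i : ℤ) + 1)
  b_indep := linInd_wq_int (by positivity)
  b_span := span_wq _

lemma disc_datumQ (i : ℕ) : (datumQ i).disc = ((i : ℚ) + 1) ^ 4 * Algebra.discr ℚ Bq := by
  have e : (datumQ i).disc = Algebra.discr ℚ (wq ((i : ℤ) + 1)) := rfl
  rw [e, discr_wq]
  push_cast
  ring

end Vale.Agent.P007
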