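import Vale.Agent.P007.Bounded
import Vale.Agent.P007.Quartic2

namespace Vale.Agent.P007

open Matrix MeasureTheory Topology Set Filter

/-- Necessary condition for (vague) convergence of measures carried by the packets. -/
theorem necessary_condition (n : ℕ) (d : ℕ → OrderDatum n)
    (m : Measure (LatX n)) [IsProbabilityMeasure m] [SMulInvariantMeasure (SLR n) (LatX n) m]
    (μ : ℕ → Measure (LatX n)) (hμ : ∀ i, μ i (d i).packetᶜ = 0)
    (hconv : ∀ f : C(LatX n, ℝ), HasCompactSupport f →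
      Tendsto (fun i => ∫ x, f x ∂(μ i)) atTop (𝓝 (∫ x, f x ∂m)))
    (C : ℝ) :
    ∀ᶠ i in atTop, ∀ γ ∈ (d i).O, (∀ q : ℚ, γ ≠ (q : (d i).K)) → ∃ j, C < |(d i).σ j γ| := by
  by_contra hcon
  rw [Filter.not_eventually] at hcon
  set S : Set ℕ := {i | ¬ ∀ γ ∈ (d i).O, (∀ q : ℚ, γ ≠ (q : (d i).K)) → ∃ j, C < |(d i).σ j γ|}
    with hS
  have hbad : ∀ i : S, ∃ γ ∈ (d i).O, (∀ q : ℚ, γ ≠ (q : (d i).K)) ∧
      ∀ j, |(d i).σ j γ| ≤ C := by
    rintro ⟨i, hi⟩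
    have hi' : ¬ ∀ γ ∈ (d i).O, (∀ q : ℚ, γ ≠ (q : (d i).K)) → ∃ j, C < |(d i).σ j γ| := hi
    push Not at hi'
    obtain ⟨γ, h1, h2, h3⟩ := hi'
    exact ⟨γ, h1, h2, h3⟩
  obtain ⟨f, hfc, -, hfm, hf0⟩ := obstruction_bounded (fun i : S => d i) C hbad m
  have h1 : ∀ᶠ i in atTop, (1 / 2 : ℝ) < ∫ x, f x ∂(μ i) :=
    (hconv f hfc).eventually (lt_mem_nhds hfm)
  obtain ⟨i, hi1, hi2⟩ := (hcon.and_eventually h1).exists
  have := hf0 ⟨i, hi1⟩ (μ i) (hμ i)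
  rw [this] at hi2
  norm_num at hi2

lemma sq_mem_Oq (t : ℤ) : αq ^ 2 ∈ Oq t := ⟨0, 0, 1, 0, by simp⟩

lemma αq_sq_not_rat (q : ℚ) : αq ^ 2 ≠ (q : Kq) := by
  intro h
  have h1 : ((q : Kq)) ^ 2 = 4 * (q : Kq) - 2 := by
    rw [← h]
    linear_combination αq_pow_four
  have h2 : (q ^ 2 : ℚ) = 4 * q - 2 := by exact_mod_cast h1
  have h3 : ((q - 2 : ℚ) : ℝ) ^ 2 = 2 := by
    have : (q - 2) ^ 2 = (2 : ℚ) := by linear_combination h2
    exact_mod_cast this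
  have h4 : Real.sqrt 2 = |((q - 2 : ℚ) : ℝ)| := by
    rw [← h3, Real.sqrt_sq_eq_abs]
  apply irrational_sqrt_two
  exact ⟨|q - 2|, by rw [h4]; push_cast; rfl⟩

lemma emb_αq_sq_bound (φ : Kq →+* ℝ) : |φ (αq ^ 2)| ≤ 4 := by
  have h1 : (φ (αq ^ 2)) ^ 2 = 4 * φ (αq ^ 2) - 2 := by
    have := congrArg φ αq_pow_four
    simp only [map_pow, map_sub, map_mul, map_ofNat] at this ⊢
    linear_combination this
  rw [abs_le]
  constructor <;> nlinarith [sq_nonneg (φ (αq ^ 2) - 2), sq_nonneg (φ (αq ^ 2))]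

lemma tendsto_disc_datumQ : Tendsto (fun i => |(datumQ i).disc|) atTop atTop := by
  have h0 : 0 < |Algebra.discr ℚ Bq| := abs_pos.mpr discr_Bq_ne
  have h1 : ∀ i : ℕ, |(datumQ i).disc| = ((i : ℚ) + 1) ^ 4 * |Algebra.discr ℚ Bq| := by
    intro i
    rw [disc_datumQ, abs_mul, abs_of_nonneg (by positivity)]
  simp only [h1]
  apply Tendsto.atTop_mul_const h0
  have h2 : Tendsto (fun i : ℕ => (i : ℚ) + 1) atTop atTop :=
    tendsto_atTop_add_const_right _ _ tendsto_natCast_atTop_atTop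
  exact (tendsto_pow_atTop (by norm_num)).comp h2

/-- The quartic counterexample. -/
theorem quartic_counterexample :
    ∃ d : ℕ → OrderDatum 4,
      Tendsto (fun i => |(d i).disc|) atTop atTop ∧
      (∀ i, (d i).packet.Nonempty) ∧
      ∀ (m : Measure (LatX 4)) [IsProbabilityMeasure m]
        [SMulInvariantMeasure (SLR 4) (LatX 4) m],
        ∃ f : C(LatX 4, ℝ), HasCompactSupport f ∧ (∀ x, f x ∈ Set.Icc (0 : ℝ) 1) ∧
          1 / 2 < ∫ x, f x ∂m ∧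
          ∀ i, ∀ μ : Measure (LatX 4), μ (d i).packetᶜ = 0 → ∫ x, f x ∂μ = 0 := by
  refine ⟨datumQ, tendsto_disc_datumQ, fun i => packet_nonempty _, ?_⟩
  intro m _ _
  apply obstruction_bounded datumQ 4
  intro i
  exact ⟨αq ^ 2, sq_mem_Oq _, αq_sq_not_rat, fun j => emb_αq_sq_bound _⟩

end Vale.Agent.P007
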