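import Vale.Agent.P007.Composite

namespace Vale.Agent.P007

open MeasureTheory Filter

lemma exists_factor {n : ℕ} (hn : 4 ≤ n) (hc : ¬ n.Prime) : ∃ a b, 2 ≤ a ∧ 2 ≤ b ∧ n = a * b := by
  obtain ⟨a, b, ha, hb, hab⟩ := (Nat.not_prime_iff_exists_mul_eq (by omega)).mp hc
  refine ⟨a, b, ?_, ?_, hab.symm⟩
  · by_contra h
    have : a = 0 ∨ a = 1 := by omega
    rcases this with rfl | rfl
    · simp at hab; omega
    · simp at hab; omega
  · by_contra h
    have : b = 0 ∨ b = 1 := by omega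
    rcases this with rfl | rfl
    · simp at hab; omega
    · simp at hab; omega

/-- The counterexample in every composite degree. -/
theorem composite_counterexample (n : ℕ) (hn : 4 ≤ n) (hc : ¬ n.Prime) :
    ∃ d : ℕ → OrderDatum n,
      Tendsto (fun i => |(d i).disc|) atTop atTop ∧
      (∀ i, (d i).packet.Nonempty) ∧
      ∀ m : Measure (LatX n), IsInvariantProb m →
        ∃ f : C(LatX n, ℝ), HasCompactSupport f ∧ (∀ x, 0 ≤ f x ∧ f x ≤ 1) ∧
          1 / 2 < ∫ x, f x ∂m ∧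
          ∀ i, ∀ μ : Measure (LatX n), μ (d i).packetᶜ = 0 → ∫ x, f x ∂μ = 0 := by
  obtain ⟨a, b, ha, hb, rfl⟩ := exists_factor hn hc
  haveI : Fact (2 ≤ a) := ⟨ha⟩
  haveI : Fact (2 ≤ b) := ⟨hb⟩
  obtain ⟨d, h1, h2, h3⟩ := composite_counterexample_aux a b
  refine ⟨d, h1, h2, fun m hm => ?_⟩
  haveI := hm.1
  haveI := hm.2
  exact h3 m

end Vale.Agent.P007
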