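import Vale.Agent.P007.Null

namespace Vale.Agent.P007

open Matrix MeasureTheory Topology Set

variable {n : ℕ}

/-- The union of the sets of lattices stable under a diagonal matrix with entries in `R`. -/
def bigStab (n : ℕ) (R : Finset ℝ) : Set (LatX n) :=
  ⋃ d ∈ Fintype.piFinset (fun _ : Fin n => R), stab (Matrix.diagonal d)

lemma isClosed_bigStab (R : Finset ℝ) : IsClosed (bigStab n R) :=
  isClosed_biUnion_finset fun _ _ => isClosed_stab _

lemma measure_bigStab (m : Measure (LatX n)) [IsFiniteMeasure m]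
    [SMulInvariantMeasure (SLR n) (LatX n) m] (j : Fin n) (R : Finset ℝ)
    (hR : ∀ r ∈ R, Irrational r) : m (bigStab n R) = 0 := by
  unfold bigStab
  refine (measure_biUnion_null_iff
    (Finset.countable_toSet (Fintype.piFinset (fun _ : Fin n => R)))).mpr ?_
  intro d hd
  have hd' : d ∈ Fintype.piFinset (fun _ : Fin n => R) := hd
  rw [Fintype.mem_piFinset] at hd'
  exact measure_stab_diagonal m d j (hR _ (hd' j))

/-- A compactly supported test function vanishing on a closed null set and with large integral. -/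
lemma exists_test (m : Measure (LatX n)) [IsProbabilityMeasure m] {Z : Set (LatX n)}
    (hZc : IsClosed Z) (hZ : m Z = 0) :
    ∃ f : C(LatX n, ℝ), HasCompactSupport f ∧ (∀ x, f x ∈ Set.Icc (0 : ℝ) 1) ∧
      (∀ x ∈ Z, f x = 0) ∧ 1 / 2 < ∫ x, f x ∂m := by
  have hU : IsOpen Zᶜ := hZc.isOpen_compl
  have hmU : m Zᶜ = 1 := by
    rw [measure_compl hZc.measurableSet (by simp [hZ]), hZ]
    simp
  have hlt : (1 / 2 : ENNReal) < m Zᶜ := by
    rw [hmU, one_div]
    exact ENNReal.one_half_lt_one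
  obtain ⟨C, hCU, hC, hmC⟩ := hU.exists_lt_isCompact hlt
  have hdisj : Disjoint C Z := by
    rw [Set.disjoint_left]
    intro x hx hxZ
    exact hCU hx hxZ
  obtain ⟨f, hf1, hf0, hfc, hf01⟩ := exists_continuous_one_zero_of_isCompact hC hZc hdisj
  refine ⟨f, hfc, hf01, fun x hx => hf0 hx, ?_⟩
  have hint : Integrable (fun x => f x) m := f.continuous.integrable_of_hasCompactSupport hfc
  have h1 : (m C).toReal ≤ ∫ x, f x ∂m := by
    have h2 : ∫ x, C.indicator (fun _ => (1 : ℝ)) x ∂m ≤ ∫ x, f x ∂m := by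
      apply integral_mono _ hint
      · intro x
        by_cases hx : x ∈ C
        · simp [hx, hf1 hx]
        · simp [hx, (hf01 x).1]
      · exact (integrable_const (1 : ℝ)).indicator hC.measurableSet
    rw [integral_indicator hC.measurableSet] at h2
    simpa [Measure.real] using h2
  have h3 : (1 / 2 : ℝ) < (m C).toReal := by
    have := (ENNReal.toReal_lt_toReal (by simp) (measure_ne_top m C)).mpr hmC
    simpa using this
  linarith

/-- If the order contains an element `γ`, the packet consists of lattices stable under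
`diag (σ_j γ)`. -/
lemma packet_subset_stab (d : OrderDatum n) (γ : d.K) (hγ : γ ∈ d.O) :
    d.packet ⊆ stab (Matrix.diagonal (fun j => d.σ j γ)) := by
  rintro x ⟨g, I, c, ε, u, rfl, hI, -, -, -, hL⟩
  rw [mem_stab_iff]
  -- each column of `diag * g` lies in the lattice
  have key : ∀ k : Fin n, ∃ z : Fin n → ℤ,
      (Matrix.diagonal (fun j => d.σ j γ) * g.1) *ᵥ (Pi.single k (1 : ℝ)) =
        g.1 *ᵥ (fun i => (z i : ℝ)) := by
    intro k
    have h1 : g.1 *ᵥ (Pi.single k (1 : ℝ)) ∈ latticeOf g := by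
      refine ⟨Pi.single k 1, ?_⟩
      congr 1
      ext i
      by_cases hik : i = k
      · subst hik; simp
      · simp [hik]
    rw [hL] at h1
    obtain ⟨y, hy, hv⟩ := h1
    have h2 : (fun j => c * ε j * Real.exp (u j) * d.σ j (γ * y)) ∈ latticeOf g := by
      rw [hL]
      exact ⟨γ * y, hI.1 γ hγ y hy, fun j => rfl⟩
    obtain ⟨z, hz⟩ := h2
    refine ⟨z, ?_⟩
    rw [← hz, ← Matrix.mulVec_mulVec]
    ext j
    rw [Matrix.mulVec_diagonal, hv j, map_mul]
    ring
  choose z hz using key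
  refine ⟨Matrix.of (fun i k => z k i), ?_⟩
  ext i k
  have h3 : (((g⁻¹ : SLR n) : Matrix (Fin n) (Fin n) ℝ) *
      Matrix.diagonal (fun j => d.σ j γ) * g.1) *ᵥ (Pi.single k (1 : ℝ)) =
      fun i => (z k i : ℝ) := by
    rw [Matrix.mul_assoc, ← Matrix.mulVec_mulVec, hz k, Matrix.mulVec_mulVec, inv_mul_coe,
      Matrix.one_mulVec]
  have h4 := congrFun h3 i
  rw [Matrix.mulVec_single_one] at h4
  exact h4

lemma packet_subset_bigStab (d : OrderDatum n) (R : Finset ℝ) (γ : d.K) (hγ : γ ∈ d.O)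
    (hR : ∀ j, d.σ j γ ∈ R) : d.packet ⊆ bigStab n R := by
  intro x hx
  unfold bigStab
  simp only [Set.mem_iUnion]
  exact ⟨fun j => d.σ j γ, by simpa [Fintype.mem_piFinset] using hR,
    packet_subset_stab d γ hγ hx⟩

/-- General obstruction, finite-set form. -/
theorem obstruction_finset {ι : Type*} (d : ι → OrderDatum n) (R : Finset ℝ)
    (hR : ∀ r ∈ R, Irrational r)
    (h : ∀ i, ∃ γ ∈ (d i).O, ∀ j, (d i).σ j γ ∈ R)
    (m : Measure (LatX n)) [IsProbabilityMeasure m] [SMulInvariantMeasure (SLR n) (LatX n) m]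
    (j : Fin n) :
    ∃ f : C(LatX n, ℝ), HasCompactSupport f ∧ (∀ x, f x ∈ Set.Icc (0 : ℝ) 1) ∧
      1 / 2 < ∫ x, f x ∂m ∧
      ∀ i, ∀ μ : Measure (LatX n), μ (d i).packetᶜ = 0 → ∫ x, f x ∂μ = 0 := by
  obtain ⟨f, hfc, hf01, hf0, hfm⟩ := exists_test m (isClosed_bigStab (n := n) R)
    (measure_bigStab m j R hR)
  refine ⟨f, hfc, hf01, hfm, ?_⟩
  intro i μ hμ
  obtain ⟨γ, hγ, hγR⟩ := h i
  apply integral_eq_zero_of_ae
  have hsub : {x | ¬ (f x = (0 : LatX n → ℝ) x)} ⊆ (d i).packetᶜ := by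
    intro x hx hxp
    exact hx (hf0 x (packet_subset_bigStab (d i) R γ hγ hγR hxp))
  exact measure_mono_null hsub hμ

end Vale.Agent.P007
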