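import Vale.Agent.P007.General

namespace Vale.Agent.P007

open Matrix MeasureTheory Topology Set

variable {n : ℕ}

/-- The matrix `(σ_j (b_k))`. -/
noncomputable def embMat (d : OrderDatum n) : Matrix (Fin n) (Fin n) ℝ :=
  Matrix.of fun j k => d.σ j (d.b k)

lemma linInd_basis_rat (d : OrderDatum n) : LinearIndependent ℚ d.b :=
  (LinearIndependent.iff_fractionRing ℤ ℚ).mp d.b_indep

lemma span_basis_rat (d : OrderDatum n) : Submodule.span ℚ (Set.range d.b) = ⊤ :=
  (linInd_basis_rat d).span_eq_top_of_card_eq_finrank' (by simp [d.deg])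

lemma det_embMat_ne_zero (d : OrderDatum n) : (embMat d).det ≠ 0 := by
  intro h0
  obtain ⟨v, hv0, hv⟩ := Matrix.exists_vecMul_eq_zero_iff.mpr h0
  -- the linear functional
  let L : d.K →ₗ[ℚ] ℝ := ∑ j, v j • ((d.σ j).toRatAlgHom.toLinearMap)
  have hL : ∀ x, L x = ∑ j, v j * d.σ j x := by
    intro x
    simp [L]
  have hLb : ∀ k, L (d.b k) = 0 := by
    intro k
    rw [hL]
    have := congrFun hv k
    simpa [Matrix.vecMul, dotProduct, embMat] using this
  have hL0 : L = 0 := by
    apply LinearMap.ext_on_range (span_basis_rat d)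
    intro k
    simpa using hLb k
  have hli : LinearIndependent ℝ (fun j : Fin n => (((d.σ j : d.K →+* ℝ) : d.K →* ℝ) : d.K → ℝ)) := by
    have h1 := linearIndependent_monoidHom d.K ℝ
    have hinj : Function.Injective (fun j : Fin n => ((d.σ j : d.K →+* ℝ) : d.K →* ℝ)) := by
      intro a b hab
      apply d.σ.injective
      ext x
      exact DFunLike.congr_fun hab x
    exact h1.comp _ hinj
  rw [Fintype.linearIndependent_iff] at hli
  apply hv0
  ext j
  apply hli v
  ext x
  have := hL x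
  rw [hL0] at this
  simpa using this.symm

lemma pos_of_datum (d : OrderDatum n) : 0 < n := by
  rw [← d.deg]
  exact Module.finrank_pos

lemma packet_nonempty (d : OrderDatum n) : d.packet.Nonempty := by
  classical
  have hn : 0 < n := pos_of_datum d
  set B := embMat d with hB
  have hdet : B.det ≠ 0 := det_embMat_ne_zero d
  set j0 : Fin n := ⟨0, hn⟩
  set s : ℝ := if 0 < B.det then 1 else -1 with hs
  have hs1 : s = 1 ∨ s = -1 := by
    rw [hs]; split_ifs <;> simp
  have hsdet : s * B.det = |B.det| := by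
    rw [hs]
    split_ifs with h
    · rw [abs_of_pos h, one_mul]
    · rw [abs_of_nonpos (not_lt.mp h)]; ring
  set c : ℝ := (|B.det|⁻¹) ^ ((n : ℝ)⁻¹) with hc
  have habs : 0 < |B.det| := abs_pos.mpr hdet
  have hcpos : 0 < c := Real.rpow_pos_of_pos (inv_pos.mpr habs) _
  have hcn : c ^ n = |B.det|⁻¹ :=
    Real.rpow_inv_natCast_pow (inv_pos.mpr habs).le hn.ne'
  set ε : Fin n → ℝ := Function.update (fun _ => (1 : ℝ)) j0 s with hε
  have hε1 : ∀ j, ε j = 1 ∨ ε j = -1 := by
    intro j
    by_cases hj : j = j0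
    · subst hj; simpa [hε] using hs1
    · simp [hε, hj]
  have hεprod : ∏ j, ε j = s := by
    rw [hε, Finset.prod_update_of_mem (Finset.mem_univ _)]
    simp
  set G : Matrix (Fin n) (Fin n) ℝ := Matrix.diagonal (fun j => c * ε j) * B with hG
  have hGdet : G.det = 1 := by
    rw [hG, Matrix.det_mul, Matrix.det_diagonal, Finset.prod_mul_distrib, hεprod]
    simp only [Finset.prod_const, Finset.card_univ, Fintype.card_fin]
    rw [hcn, mul_assoc, hsdet]
    exact inv_mul_cancel₀ habs.ne'
  let g : SLR n := ⟨G, hGdet⟩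
  set I : Submodule ℤ d.K := Submodule.span ℤ (Set.range d.b) with hI
  have hIO : ∀ x : d.K, x ∈ I ↔ x ∈ d.O := fun x => (d.b_span x).symm
  have hmod : d.IsOModule I := by
    intro a ha y hy
    rw [hIO] at hy ⊢
    exact d.O.mul_mem ha hy
  have hinv : d.IsInvertibleIdeal I := by
    refine ⟨hmod, I, hmod, fun x => ?_⟩
    constructor
    · intro hx
      rw [← hIO]
      refine Submodule.mul_le.mpr ?_ hx
      intro a ha y hy
      exact hmod a ((hIO a).mp ha) y hy
    · intro hx
      have h1 : (1 : d.K) ∈ I := (hIO 1).mpr d.O.one_mem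
      have := Submodule.mul_mem_mul ((hIO x).mpr hx) h1
      simpa using this
  refine ⟨(g : LatX n), g, I, c, ε, fun _ => 0, rfl, hinv, hcpos, hε1, by simp, ?_⟩
  have hGz : ∀ (z : Fin n → ℤ) (j : Fin n), (G *ᵥ (fun i => (z i : ℝ))) j =
      c * ε j * Real.exp 0 * d.σ j (∑ k, z k • d.b k) := by
    intro z j
    rw [hG, ← Matrix.mulVec_mulVec, Matrix.mulVec_diagonal]
    have : (B *ᵥ fun i => (z i : ℝ)) j = d.σ j (∑ k, z k • d.b k) := by
      simp [hB, embMat, Matrix.mulVec, dotProduct, mul_comm]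
    rw [this]
    simp
  ext v
  constructor
  · rintro ⟨z, rfl⟩
    refine ⟨∑ k, z k • d.b k, ?_, fun j => hGz z j⟩
    exact Submodule.sum_mem _ fun k _ =>
      Submodule.smul_mem _ _ (Submodule.subset_span (Set.mem_range_self k))
  · rintro ⟨y, hy, hv⟩
    obtain ⟨z, rfl⟩ := (Submodule.mem_span_range_iff_exists_fun ℤ).mp hy
    refine ⟨z, ?_⟩
    ext j
    show v j = (G *ᵥ _) j
    rw [hGz z j, hv j]

end Vale.Agent.P007
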