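import Vale.Agent.P007.Core

namespace Vale.Agent.P007

open Matrix MeasureTheory Topology Set

variable {n : ℕ}

/-- An integral matrix cannot have an irrational eigenvalue with a nonzero integral
matrix of eigenvectors. -/
lemma not_irrational_of_mul_eq_smul {M N : Matrix (Fin n) (Fin n) ℝ} (hM : IsIntMat M)
    (hN : IsIntMat N) (hN0 : N ≠ 0) {r : ℝ} (h : M * N = r • N) : ¬ Irrational r := by
  obtain ⟨P, hP⟩ := hM.mul hN
  obtain ⟨Q, rfl⟩ := hN
  have : ∃ i j, Q i j ≠ 0 := by
    by_contra hcon
    push Not at hcon
    apply hN0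
    ext i j
    simp [hcon i j]
  obtain ⟨i, j, hij⟩ := this
  have h1 : (P i j : ℝ) = r * (Q i j : ℝ) := by
    have := congrFun (congrFun (hP.symm.trans h) i) j
    simpa using this
  have hq : (Q i j : ℝ) ≠ 0 := by exact_mod_cast hij
  have h2 : r = ((P i j : ℚ) / (Q i j : ℚ) : ℚ) := by
    push_cast
    field_simp
    linarith
  intro hr
  rw [h2] at hr
  exact (Rat.not_irrational _) hr

lemma single_mul_single_self {j k : Fin n} (hjk : j ≠ k) (a b : ℝ) :
    Matrix.single j k a * Matrix.single j k b = 0 := by
  rw [Matrix.single_mul_single_of_ne]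
  exact fun h => hjk h.symm

lemma diagonal_mul_single' (d : Fin n → ℝ) (j k : Fin n) (a : ℝ) :
    Matrix.diagonal d * Matrix.single j k a = d j • Matrix.single j k a := by
  ext p q
  rw [Matrix.diagonal_mul]
  by_cases hp : p = j
  · subst hp
    simp
  · have : Matrix.single j k a p q = 0 := by
      simp [Ne.symm hp]
    simp [this]

lemma single_mul_diagonal' (d : Fin n → ℝ) (j k : Fin n) (a : ℝ) :
    Matrix.single j k a * Matrix.diagonal d = d k • Matrix.single j k a := by
  ext p q
  rw [Matrix.mul_diagonal]
  by_cases hq : q = k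
  · subst hq
    simp [mul_comm]
  · have : Matrix.single j k a p q = 0 := by
      simp [Ne.symm hq]
    simp [this]

/-- Lattices stable under `diag d + s E_jk` and `diag d + t E_jk` do not exist when `s ≠ t` and
`d j` is irrational. -/
lemma disjoint_stab (d : Fin n → ℝ) {j k : Fin n} (hjk : j ≠ k) (hj : Irrational (d j))
    {s t : ℝ} (hst : s ≠ t) :
    Disjoint (stab (Matrix.diagonal d + Matrix.single j k s))
      (stab (Matrix.diagonal d + Matrix.single j k t)) := by
  rw [Set.disjoint_left]
  intro x hx1 hx2
  induction x using QuotientGroup.induction_on with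
  | H g =>
    rw [mem_stab_iff] at hx1 hx2
    set gi : Matrix (Fin n) (Fin n) ℝ := ((g⁻¹ : SLR n) : Matrix (Fin n) (Fin n) ℝ) with hgi
    have hM : IsIntMat (gi * (Matrix.diagonal d + Matrix.single j k s) * g.1) := hx1
    have hM' : IsIntMat (gi * (Matrix.diagonal d + Matrix.single j k t) * g.1) := hx2
    have hN := hM'.sub hM
    have hNe : gi * (Matrix.diagonal d + Matrix.single j k t) * g.1 -
        gi * (Matrix.diagonal d + Matrix.single j k s) * g.1 =
        gi * Matrix.single j k (t - s) * g.1 := by
      have : Matrix.single j k (t - s) = Matrix.single j k t - Matrix.single j k s := by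
        ext p q
        simp [Matrix.single_apply, sub_eq_add_neg]
        split_ifs <;> simp
      rw [this]
      noncomm_ring
    rw [hNe] at hN
    have hN0 : gi * Matrix.single j k (t - s) * g.1 ≠ 0 := by
      intro h0
      have h1 : g.1 * (gi * Matrix.single j k (t - s) * g.1) * gi = 0 := by
        rw [h0]; simp
      have h2 : g.1 * (gi * Matrix.single j k (t - s) * g.1) * gi =
          (g.1 * gi) * Matrix.single j k (t - s) * (g.1 * gi) := by
        noncomm_ring
      rw [h2, hgi, mul_inv_coe] at h1
      have h3 := congrFun (congrFun h1 j) k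
      simp at h3
      exact hst (by linarith [sub_eq_zero.mp h3])
    refine not_irrational_of_mul_eq_smul hM hN hN0 (r := d j) ?_ hj
    have e1 : gi * (Matrix.diagonal d + Matrix.single j k s) * g.1 *
        (gi * Matrix.single j k (t - s) * g.1) =
        gi * ((Matrix.diagonal d + Matrix.single j k s) * (g.1 * gi) *
          Matrix.single j k (t - s)) * g.1 := by
      noncomm_ring
    rw [e1, hgi, mul_inv_coe, Matrix.mul_one, Matrix.add_mul, diagonal_mul_single',
      single_mul_single_self hjk, add_zero, Matrix.mul_smul, Matrix.smul_mul]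

/-- The transvection `1 + t E_jk` as an element of `SL_n(ℝ)`. -/
noncomputable def transv {j k : Fin n} (hjk : j ≠ k) (t : ℝ) : SLR n :=
  ⟨Matrix.transvection j k t, Matrix.det_transvection_of_ne j k hjk t⟩

lemma transv_inv_coe {j k : Fin n} (hjk : j ≠ k) (t : ℝ) :
    (((transv hjk t)⁻¹ : SLR n) : Matrix (Fin n) (Fin n) ℝ) = Matrix.transvection j k (-t) := by
  have h1 : (transv hjk t) * (transv hjk (-t)) = 1 := by
    apply Subtype.ext
    show Matrix.transvection j k t * Matrix.transvection j k (-t) = 1
    rw [Matrix.transvection_mul_transvection_same j k hjk]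
    simp
  have h2 : (transv hjk t)⁻¹ = transv hjk (-t) := inv_eq_of_mul_eq_one_right h1
  rw [h2]
  rfl

lemma conj_transv (d : Fin n → ℝ) {j k : Fin n} (hjk : j ≠ k) (t : ℝ) :
    (((transv hjk t)⁻¹ : SLR n) : Matrix (Fin n) (Fin n) ℝ) * Matrix.diagonal d *
      (transv hjk t).1 = Matrix.diagonal d + Matrix.single j k (t * (d j - d k)) := by
  rw [transv_inv_coe]
  show Matrix.transvection j k (-t) * Matrix.diagonal d * Matrix.transvection j k t = _
  unfold Matrix.transvection
  have e : (1 + Matrix.single j k (-t)) * Matrix.diagonal d * (1 + Matrix.single j k t) =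
      Matrix.diagonal d + Matrix.diagonal d * Matrix.single j k t +
      Matrix.single j k (-t) * Matrix.diagonal d +
      (Matrix.single j k (-t) * Matrix.diagonal d) * Matrix.single j k t := by
    noncomm_ring
  rw [e, diagonal_mul_single', single_mul_diagonal', Matrix.smul_mul,
    single_mul_single_self hjk, smul_zero, add_zero, add_assoc]
  congr 1
  ext p q
  simp [Matrix.single_apply]
  split_ifs <;> ring

lemma measure_stab_of_ne (m : Measure (LatX n)) [IsFiniteMeasure m]
    [SMulInvariantMeasure (SLR n) (LatX n) m] (d : Fin n → ℝ) {j k : Fin n}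
    (hj : Irrational (d j)) (hjk : d j ≠ d k) : m (stab (Matrix.diagonal d)) = 0 := by
  have hne : j ≠ k := fun h => hjk (by rw [h])
  set A : ℕ → Set (LatX n) := fun t => (fun x : LatX n => transv hne (t : ℝ) • x) ⁻¹'
    stab (Matrix.diagonal d) with hA
  have hAm : ∀ t, MeasurableSet (A t) := by
    intro t
    rw [hA]
    simp only [preimage_smul_stab]
    exact (isClosed_stab _).measurableSet
  have hAeq : ∀ t, m (A t) = m (stab (Matrix.diagonal d)) := by
    intro t
    exact measure_preimage_smul m (transv hne (t : ℝ)) _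
  have hdisj : Pairwise (Function.onFun Disjoint A) := by
    intro s t hst
    show Disjoint (A s) (A t)
    rw [hA]
    simp only [preimage_smul_stab, conj_transv]
    apply disjoint_stab d hne hj
    intro h
    have h0 : d j - d k ≠ 0 := sub_ne_zero.mpr hjk
    have := mul_right_cancel₀ h0 h
    exact hst (by exact_mod_cast this)
  by_contra hpos
  have h1 : m (⋃ t, A t) = ∑' t, m (A t) := measure_iUnion hdisj hAm
  simp only [hAeq] at h1
  rw [ENNReal.tsum_const_eq_top_of_ne_zero hpos] at h1
  exact (measure_ne_top m _) h1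

lemma stab_scalar_empty (d : Fin n → ℝ) (j : Fin n) (hj : Irrational (d j))
    (hall : ∀ k, d j = d k) : stab (Matrix.diagonal d) = ∅ := by
  rw [Set.eq_empty_iff_forall_notMem]
  intro x hx
  induction x using QuotientGroup.induction_on with
  | H g =>
    rw [mem_stab_iff] at hx
    have hd : Matrix.diagonal d = d j • (1 : Matrix (Fin n) (Fin n) ℝ) := by
      ext p q
      by_cases hpq : p = q
      · subst hpq
        simp [hall p]
      · simp [hpq]
    obtain ⟨N, hN⟩ : IsIntMat _ := hx
    rw [hd] at hN
    have : ((g⁻¹ : SLR n) : Matrix (Fin n) (Fin n) ℝ) * (d j • (1 : Matrix (Fin n) (Fin n) ℝ))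
        * g.1 = d j • (1 : Matrix (Fin n) (Fin n) ℝ) := by
      rw [Matrix.mul_smul, Matrix.mul_one, Matrix.smul_mul, inv_mul_coe]
    rw [this] at hN
    have h1 := congrFun (congrFun hN j) j
    simp at h1
    rw [h1] at hj
    exact (Int.not_irrational _) hj

lemma measure_stab_diagonal (m : Measure (LatX n)) [IsFiniteMeasure m]
    [SMulInvariantMeasure (SLR n) (LatX n) m] (d : Fin n → ℝ) (j : Fin n)
    (hj : Irrational (d j)) : m (stab (Matrix.diagonal d)) = 0 := by
  by_cases hall : ∀ k, d j = d k
  · rw [stab_scalar_empty d j hj hall]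
    simp
  · push Not at hall
    obtain ⟨k, hk⟩ := hall
    exact measure_stab_of_ne m d hj hk

end Vale.Agent.P007
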