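import Vale.Agent.P007.Defs

namespace Vale.Agent.P007

open Polynomial Matrix

section Field

variable (f : ℚ[X]) [hf : Fact (Irreducible f)]

/-- The power basis of `ℚ[X]/(f)`. -/
noncomputable def pbGen : PowerBasis ℚ (AdjoinRoot f) := AdjoinRoot.powerBasis hf.out.ne_zero

lemma pbGen_dim : (pbGen f).dim = f.natDegree := by
  simp [pbGen, AdjoinRoot.powerBasis_dim]

lemma pbGen_gen : (pbGen f).gen = AdjoinRoot.root f := by
  simp [pbGen, AdjoinRoot.powerBasis_gen]

lemma finrank_adjoinRoot : Module.finrank ℚ (AdjoinRoot f) = f.natDegree := by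
  rw [(pbGen f).finrank, pbGen_dim]

lemma card_emb_adjoinRoot (hm : f.Monic) (hs : (f.map (algebraMap ℚ ℝ)).Splits) :
    Nat.card (AdjoinRoot f →+* ℝ) = f.natDegree := by
  have hmin : minpoly ℚ (pbGen f).gen = f := by
    rw [pbGen_gen]
    refine (AdjoinRoot.minpoly_root hf.out.ne_zero).trans ?_
    rw [hm.leadingCoeff]
    simp
  rw [Nat.card_congr (RingHom.equivRatAlgHom (AdjoinRoot f) ℝ),
    AlgHom.natCard_of_powerBasis (pbGen f)
      (Algebra.IsSeparable.isSeparable ℚ _) (by rw [hmin]; exact hs), pbGen_dim]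

end Field

section Order

variable {K : Type*} [Field K] {ι : Type*}

/-- The family `v` with the members outside `J` multiplied by `t`. -/
def scaled (v : ι → K) (J : ι → Prop) [DecidablePred J] (t : ℤ) : ι → K :=
  fun i => (if J i then (1 : K) else (t : K)) * v i

variable (v : ι → K) (J : ι → Prop) [DecidablePred J] (t : ℤ)

lemma scaled_of_mem {i : ι} (h : J i) : scaled v J t i = v i := by simp [scaled, h]

lemma scaled_of_not_mem {i : ι} (h : ¬ J i) : scaled v J t i = (t : K) * v i := by
  simp [scaled, h]

lemma A_le_span : Submodule.span ℤ (v '' {i | J i}) ≤ Submodule.span ℤ (Set.range (scaled v J t)) := by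
  rw [Submodule.span_le]
  rintro _ ⟨i, hi, rfl⟩
  apply Submodule.subset_span
  exact ⟨i, scaled_of_mem v J t hi⟩

lemma t_smul_mem {x : K} (hx : x ∈ Submodule.span ℤ (Set.range v)) :
    (t : K) * x ∈ Submodule.span ℤ (Set.range (scaled v J t)) := by
  induction hx using Submodule.span_induction with
  | mem x hx =>
    obtain ⟨i, rfl⟩ := hx
    by_cases h : J i
    · have h1 : scaled v J t i ∈ Submodule.span ℤ (Set.range (scaled v J t)) :=
        Submodule.subset_span ⟨i, rfl⟩
      have h2 := Submodule.smul_mem _ t h1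
      rw [scaled_of_mem v J t h, zsmul_eq_mul] at h2
      exact h2
    · have h1 : scaled v J t i ∈ Submodule.span ℤ (Set.range (scaled v J t)) :=
        Submodule.subset_span ⟨i, rfl⟩
      rwa [scaled_of_not_mem v J t h] at h1
  | zero => simp
  | add x y _ _ hx hy =>
    rw [mul_add]
    exact Submodule.add_mem _ hx hy
  | smul a x _ hx =>
    have := Submodule.smul_mem _ a hx
    rw [zsmul_eq_mul] at this ⊢
    convert this using 1
    ring

lemma scaled_mul_mem (hS : ∀ i k, v i * v k ∈ Submodule.span ℤ (Set.range v))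
    (hA : ∀ i k, J i → J k → v i * v k ∈ Submodule.span ℤ (v '' {i | J i})) (i k : ι) :
    scaled v J t i * scaled v J t k ∈ Submodule.span ℤ (Set.range (scaled v J t)) := by
  by_cases hi : J i
  · by_cases hk : J k
    · rw [scaled_of_mem v J t hi, scaled_of_mem v J t hk]
      exact A_le_span v J t (hA i k hi hk)
    · rw [scaled_of_mem v J t hi, scaled_of_not_mem v J t hk]
      have := t_smul_mem v J t (hS i k)
      convert this using 1
      ring
  · by_cases hk : J k
    · rw [scaled_of_not_mem v J t hi, scaled_of_mem v J t hk]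
      have := t_smul_mem v J t (hS i k)
      convert this using 1
      ring
    · rw [scaled_of_not_mem v J t hi, scaled_of_not_mem v J t hk]
      have := Submodule.smul_mem _ t (t_smul_mem v J t (hS i k))
      rw [zsmul_eq_mul] at this
      convert this using 1
      ring

/-- The order `A + t S`: the `ℤ`-span of the scaled family, as a subring. -/
def scaledOrder (hS : ∀ i k, v i * v k ∈ Submodule.span ℤ (Set.range v))
    (hA : ∀ i k, J i → J k → v i * v k ∈ Submodule.span ℤ (v '' {i | J i}))
    (h1 : (1 : K) ∈ Submodule.span ℤ (v '' {i | J i})) : Subring K where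
  carrier := Submodule.span ℤ (Set.range (scaled v J t))
  mul_mem' := by
    intro x y hx hy
    have hle : Submodule.span ℤ (Set.range (scaled v J t)) *
        Submodule.span ℤ (Set.range (scaled v J t)) ≤
        Submodule.span ℤ (Set.range (scaled v J t)) := by
      rw [Submodule.span_mul_span, Submodule.span_le]
      rintro _ ⟨_, ⟨i, rfl⟩, _, ⟨k, rfl⟩, rfl⟩
      exact scaled_mul_mem v J t hS hA i k
    exact hle (Submodule.mul_mem_mul hx hy)
  one_mem' := A_le_span v J t h1
  add_mem' := fun hx hy => Submodule.add_mem _ hx hy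
  zero_mem' := Submodule.zero_mem _
  neg_mem' := fun hx => Submodule.neg_mem _ hx

lemma mem_scaledOrder (hS : ∀ i k, v i * v k ∈ Submodule.span ℤ (Set.range v))
    (hA : ∀ i k, J i → J k → v i * v k ∈ Submodule.span ℤ (v '' {i | J i}))
    (h1 : (1 : K) ∈ Submodule.span ℤ (v '' {i | J i})) (x : K) :
    x ∈ scaledOrder v J t hS hA h1 ↔ x ∈ Submodule.span ℤ (Set.range (scaled v J t)) := Iff.rfl

variable [Fintype ι] [DecidableEq ι] [CharZero K]

lemma discr_scaled :
    Algebra.discr ℚ (scaled v J t) =
      ((t : ℚ) ^ (Finset.univ.filter (fun i => ¬ J i)).card) ^ 2 * Algebra.discr ℚ v := by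
  have e : scaled v J t =
      v ᵥ* (Matrix.diagonal (fun i => if J i then (1 : ℚ) else (t : ℚ))).map (algebraMap ℚ K) := by
    ext i
    rw [Matrix.diagonal_map (map_zero _), Matrix.vecMul_diagonal]
    unfold scaled
    by_cases h : J i <;> simp [h, mul_comm]
  rw [e, Algebra.discr_of_matrix_vecMul, Matrix.det_diagonal, Finset.prod_ite]
  simp

end Order

end Vale.Agent.P007
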