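import Vale.Agent.P007.General

namespace Vale.Agent.P007

open Polynomial

/-- The polynomial `X^4 - 4 X^2 + 2` over `ℤ`. -/
noncomputable def fZ : ℤ[X] := X ^ 4 - 4 * X ^ 2 + 2

lemma fZ_natDegree : fZ.natDegree = 4 := by
  unfold fZ; compute_degree!

lemma fZ_monic : fZ.Monic := by
  unfold fZ; monicity!

lemma fZ_irreducible : Irreducible fZ := by
  have hE : fZ.IsEisensteinAt (Ideal.span {(2 : ℤ)}) := by
    refine ⟨?_, ?_, ?_⟩
    · rw [fZ_monic.leadingCoeff, Ideal.mem_span_singleton]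
      norm_num
    · intro k hk
      rw [fZ_natDegree] at hk
      rw [Ideal.mem_span_singleton]
      have e : fZ = X ^ 4 - C 4 * X ^ 2 + C 2 := by unfold fZ; simp
      rw [e]
      interval_cases k <;> simp [coeff_X_pow]
    · rw [Ideal.span_singleton_pow, Ideal.mem_span_singleton]
      have e : fZ = X ^ 4 - C 4 * X ^ 2 + C 2 := by unfold fZ; simp
      rw [e]
      simp [coeff_X_pow]
      try norm_num
  refine hE.irreducible ?_ fZ_monic.isPrimitive (by rw [fZ_natDegree]; norm_num)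
  rw [Ideal.span_singleton_prime (by norm_num)]
  exact Int.prime_two

/-- The polynomial `X^4 - 4 X^2 + 2` over `ℚ`. -/
noncomputable def fQ : ℚ[X] := fZ.map (Int.castRingHom ℚ)

lemma fQ_irreducible : Irreducible fQ :=
  (Polynomial.IsPrimitive.Int.irreducible_iff_irreducible_map_cast fZ_monic.isPrimitive).mp
    fZ_irreducible

instance instFactIrr : Fact (Irreducible fQ) := ⟨fQ_irreducible⟩

lemma fQ_eq : fQ = X ^ 4 - 4 * X ^ 2 + 2 := by
  unfold fQ fZ
  simp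

lemma fQ_natDegree : fQ.natDegree = 4 := by
  rw [fQ_eq]; compute_degree!

lemma fQ_ne_zero : fQ ≠ 0 := fQ_irreducible.ne_zero

/-- The totally real quartic field `ℚ(√(2+√2))`. -/
abbrev Kq := AdjoinRoot fQ

/-- The generator `α` with `α^4 = 4 α^2 - 2`. -/
noncomputable def αq : Kq := AdjoinRoot.root fQ

lemma αq_pow_four : αq ^ 4 = 4 * αq ^ 2 - 2 := by
  have h : fQ.eval₂ (AdjoinRoot.of fQ) (AdjoinRoot.root fQ) = 0 := AdjoinRoot.eval₂_root fQ
  have key : ∀ p : ℚ[X], p = X ^ 4 - 4 * X ^ 2 + 2 →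
      p.eval₂ (AdjoinRoot.of fQ) (AdjoinRoot.root fQ) = αq ^ 4 - 4 * αq ^ 2 + 2 := by
    rintro p rfl
    simp [αq, eval₂_add, eval₂_sub, eval₂_mul, eval₂_pow]
  rw [key fQ fQ_eq] at h
  linear_combination h

lemma sq_sub_eq (s a : ℝ) (h : s ^ 2 = a) :
    (X ^ 2 - C a : ℝ[X]) = (X + C s) * (X + C (-s)) := by
  subst h
  simp only [C_neg, C_pow]
  ring

lemma fQ_map_real_splits : (fQ.map (algebraMap ℚ ℝ)).Splits := by
  have h2 : (0 : ℝ) ≤ 2 - Real.sqrt 2 := by
    have : Real.sqrt 2 ≤ 2 := by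
      rw [Real.sqrt_le_left (by norm_num)]
      norm_num
    linarith
  have h2' : (0 : ℝ) ≤ 2 + Real.sqrt 2 := by positivity
  have hs : Real.sqrt 2 ^ 2 = 2 := Real.sq_sqrt (by norm_num)
  have ha : Real.sqrt (2 + Real.sqrt 2) ^ 2 = 2 + Real.sqrt 2 := Real.sq_sqrt h2'
  have hb : Real.sqrt (2 - Real.sqrt 2) ^ 2 = 2 - Real.sqrt 2 := Real.sq_sqrt h2
  have e : fQ.map (algebraMap ℚ ℝ) =
      (X + C (Real.sqrt (2 + Real.sqrt 2))) * (X + C (-Real.sqrt (2 + Real.sqrt 2))) *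
      ((X + C (Real.sqrt (2 - Real.sqrt 2))) * (X + C (-Real.sqrt (2 - Real.sqrt 2)))) := by
    rw [← sq_sub_eq _ _ ha, ← sq_sub_eq _ _ hb, fQ_eq]
    have hS : (C (Real.sqrt 2) : ℝ[X]) ^ 2 = 2 := by
      rw [← C_pow, hs]
      rfl
    have hC2 : (C (2 : ℝ) : ℝ[X]) = 2 := rfl
    simp only [C_add, C_sub, hC2, Polynomial.map_add, Polynomial.map_sub, Polynomial.map_mul,
      Polynomial.map_pow, Polynomial.map_X, Polynomial.map_ofNat]
    linear_combination hS
  rw [e]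
  exact ((Splits.X_add_C _).mul (Splits.X_add_C _)).mul
    ((Splits.X_add_C _).mul (Splits.X_add_C _))

end Vale.Agent.P007
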