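import Mathlib

namespace Vale.Agent.P007

open Polynomial Finset

/-- The real function `x ↦ ∏_{i<b} (x - N (i+1))`. -/
noncomputable def prodFun (N : ℝ) (b : ℕ) (x : ℝ) : ℝ := ∏ i ∈ range b, (x - N * ((i : ℝ) + 1))

lemma prodFun_shift (N : ℝ) (b : ℕ) (x : ℝ) :
    prodFun N b (x + N) * (x - N * b) = prodFun N b x * x := by
  have h1 : prodFun N b (x + N) = ∏ i ∈ range b, (x - N * (i : ℝ)) := by
    unfold prodFun
    apply Finset.prod_congr rfl
    intro i _
    ring
  have h2 : ∏ i ∈ range (b + 1), (x - N * (i : ℝ)) =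
      (∏ i ∈ range b, (x - N * (i : ℝ))) * (x - N * b) := Finset.prod_range_succ _ _
  have h3 : ∏ i ∈ range (b + 1), (x - N * (i : ℝ)) = prodFun N b x * x := by
    rw [Finset.prod_range_succ']
    unfold prodFun
    congr 1
    · apply Finset.prod_congr rfl
      intro i _
      push_cast
      ring
    · simp
  rw [h1, ← h2, h3]

lemma prodFun_abs_ge {N : ℝ} (hN : 0 ≤ N) (b : ℕ) (x : ℝ)
    (h : ∀ i ∈ range b, N / 2 ≤ |x - N * ((i : ℝ) + 1)|) : (N / 2) ^ b ≤ |prodFun N b x| := by
  unfold prodFun
  rw [Finset.abs_prod]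
  calc (N / 2) ^ b = ∏ _i ∈ range b, (N / 2) := by rw [Finset.prod_const, card_range]
    _ ≤ ∏ i ∈ range b, |x - N * ((i : ℝ) + 1)| :=
      Finset.prod_le_prod (fun _ _ => by positivity) h

/-- At half-integer multiples of `N`, every factor is at least `N/2` in absolute value. -/
lemma factor_ge {N : ℝ} (hN : 0 ≤ N) (j i : ℕ) :
    N / 2 ≤ |(N * j + N / 2) - N * ((i : ℝ) + 1)| := by
  have e : (N * j + N / 2) - N * ((i : ℝ) + 1) = N * ((j : ℝ) - i - 1 / 2) := by ring
  rw [e, abs_mul, abs_of_nonneg hN]
  have : (1 / 2 : ℝ) ≤ |(j : ℝ) - i - 1 / 2| := by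
    rcases le_or_gt j i with hji | hji
    · have : (j : ℝ) ≤ i := by exact_mod_cast hji
      rw [abs_of_nonpos (by linarith)]
      linarith
    · have : (i : ℝ) + 1 ≤ j := by exact_mod_cast hji
      rw [abs_of_nonneg (by linarith)]
      linarith
  nlinarith

lemma continuous_prodFun (N : ℝ) (b : ℕ) : Continuous (prodFun N b) := by
  unfold prodFun
  exact continuous_finsetProd _ fun i _ => by fun_prop

/-- For `|r| < (N/2)^b`, the equation `prodFun N b x = r` has a solution in each of the `b`
intervals `(N j + N/2, N j + 3N/2)`, `j < b`. -/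
lemma exists_root_in_interval {N : ℝ} (hN : 0 < N) (b : ℕ) {r : ℝ} (hr : |r| < (N / 2) ^ b)
    {j : ℕ} (hj : j < b) :
    ∃ x, N * j + N / 2 < x ∧ x < N * j + N / 2 + N ∧ prodFun N b x = r := by
  set c : ℝ := N * j + N / 2 with hc
  have hcpos : 0 < c := by positivity
  have hcb : c - N * b < 0 := by
    have : (j : ℝ) + 1 ≤ b := by exact_mod_cast hj
    rw [hc]
    nlinarith
  have h1 : (N / 2) ^ b ≤ |prodFun N b c| :=
    prodFun_abs_ge hN.le b c (fun i _ => factor_ge hN.le j i)
  have h2 : (N / 2) ^ b ≤ |prodFun N b (c + N)| := by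
    apply prodFun_abs_ge hN.le b
    intro i _
    have := factor_ge hN.le (j + 1) i
    have e : N * ((j + 1 : ℕ) : ℝ) + N / 2 = c + N := by rw [hc]; push_cast; ring
    rwa [e] at this
  have hshift := prodFun_shift N b c
  have hcont : ContinuousOn (prodFun N b) (Set.Icc c (c + N)) := (continuous_prodFun N b).continuousOn
  have hle : c ≤ c + N := by linarith
  have hrr := abs_lt.mp hr
  rcases lt_or_ge 0 (prodFun N b c) with hpos | hneg
  · -- value at c is positive and large, value at c+N negative
    have hA : (N / 2) ^ b ≤ prodFun N b c := by rwa [abs_of_pos hpos] at h1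
    have hB : prodFun N b (c + N) < 0 := by
      by_contra hcon
      push Not at hcon
      have : prodFun N b (c + N) * (c - N * b) ≤ 0 := mul_nonpos_of_nonneg_of_nonpos hcon hcb.le
      have : 0 < prodFun N b c * c := mul_pos hpos hcpos
      linarith
    have hB' : prodFun N b (c + N) ≤ -(N / 2) ^ b := by
      rw [abs_of_neg hB] at h2
      linarith
    have hmem : r ∈ Set.Ioo (prodFun N b (c + N)) (prodFun N b c) := ⟨by linarith, by linarith⟩
    obtain ⟨x, hx, hxr⟩ := intermediate_value_Ioo' hle hcont hmem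
    exact ⟨x, hx.1, hx.2, hxr⟩
  · have hne : prodFun N b c ≠ 0 := by
      intro h0
      rw [h0, abs_zero] at h1
      have : 0 < (N / 2) ^ b := by positivity
      linarith
    have hneg' : prodFun N b c < 0 := lt_of_le_of_ne hneg hne
    have hA : prodFun N b c ≤ -(N / 2) ^ b := by
      rw [abs_of_neg hneg'] at h1
      linarith
    have hB : 0 < prodFun N b (c + N) := by
      by_contra hcon
      push Not at hcon
      have : 0 ≤ prodFun N b (c + N) * (c - N * b) := mul_nonneg_of_nonpos_of_nonpos hcon hcb.le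
      have : prodFun N b c * c < 0 := mul_neg_of_neg_of_pos hneg' hcpos
      linarith
    have hB' : (N / 2) ^ b ≤ prodFun N b (c + N) := by rwa [abs_of_pos hB] at h2
    have hmem : r ∈ Set.Ioo (prodFun N b c) (prodFun N b (c + N)) := ⟨by linarith, by linarith⟩
    obtain ⟨x, hx, hxr⟩ := intermediate_value_Ioo hle hcont hmem
    exact ⟨x, hx.1, hx.2, hxr⟩

/-- The polynomial `∏_{i<b} (X - N (i+1))` over a commutative ring. -/
noncomputable def prodPoly {R : Type*} [CommRing R] (N : R) (b : ℕ) : R[X] :=
  ∏ i ∈ range b, (X - C (N * ((i : R) + 1)))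

lemma prodPoly_monic {R : Type*} [CommRing R] (N : R) (b : ℕ) : (prodPoly N b).Monic :=
  monic_prod_of_monic _ _ fun _ _ => monic_X_sub_C _

lemma prodPoly_natDegree {R : Type*} [CommRing R] [Nontrivial R] (N : R) (b : ℕ) :
    (prodPoly N b).natDegree = b := by
  unfold prodPoly
  rw [natDegree_prod_of_monic _ _ fun _ _ => monic_X_sub_C _]
  simp only [natDegree_X_sub_C, sum_const, card_range, smul_eq_mul, mul_one]

lemma prodPoly_eval (N : ℝ) (b : ℕ) (x : ℝ) : (prodPoly N b).eval x = prodFun N b x := by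
  unfold prodPoly prodFun
  rw [eval_prod]
  simp

lemma prodPoly_map {R S : Type*} [CommRing R] [CommRing S] (φ : R →+* S) (N : R) (b : ℕ) :
    (prodPoly N b).map φ = prodPoly (φ N) b := by
  unfold prodPoly
  rw [Polynomial.map_prod]
  simp

/-- `∏ (X - N(i+1)) - r` splits over `ℝ` when `|r| < (N/2)^b`. -/
lemma prodPoly_sub_C_splits {N : ℝ} (hN : 0 < N) (b : ℕ) {r : ℝ} (hr : |r| < (N / 2) ^ b) :
    (prodPoly N b - C r).Splits := by
  classical
  rcases Nat.eq_zero_or_pos b with hb0 | hbpos
  · subst hb0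
    have : (prodPoly N 0 - C r) = C (1 - r) := by
      unfold prodPoly
      simp
    rw [this]
    exact Splits.C _
  set P : ℝ[X] := prodPoly N b - C r with hP
  have hdeg : (C r : ℝ[X]).degree < (prodPoly N b).degree := by
    rw [degree_eq_natDegree (prodPoly_monic N b).ne_zero, prodPoly_natDegree]
    exact lt_of_le_of_lt degree_C_le (by exact_mod_cast hbpos)
  have hmonic : P.Monic := (prodPoly_monic N b).sub_of_left hdeg
  have hnat : P.natDegree = b := by
    rw [hP, natDegree_sub_eq_left_of_natDegree_lt, prodPoly_natDegree]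
    rw [prodPoly_natDegree, natDegree_C]
    exact hbpos
  choose! ρ hρ1 hρ2 hρ3 using fun (j : ℕ) (hj : j < b) => exists_root_in_interval hN b hr hj
  have hinj : Set.InjOn ρ (range b : Set ℕ) := by
    intro i hi j hj hij
    have hi' : i < b := by simpa using hi
    have hj' : j < b := by simpa using hj
    by_contra hne
    rcases lt_or_gt_of_ne hne with hlt | hlt
    · have h1 := hρ2 i hi'
      have h2 := hρ1 j hj'
      have : (i : ℝ) + 1 ≤ j := by exact_mod_cast hlt
      rw [hij] at h1
      nlinarith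
    · have h1 := hρ2 j hj'
      have h2 := hρ1 i hi'
      have : (j : ℝ) + 1 ≤ i := by exact_mod_cast hlt
      rw [hij] at h2
      nlinarith
  have hsub : (range b).image ρ ⊆ P.roots.toFinset := by
    intro x hx
    rw [Finset.mem_image] at hx
    obtain ⟨j, hj, rfl⟩ := hx
    rw [Multiset.mem_toFinset, mem_roots hmonic.ne_zero, IsRoot.def, hP, eval_sub, eval_C,
      prodPoly_eval, hρ3 j (by simpa using hj), sub_self]
  have hcard : b ≤ P.roots.card := by
    calc b = ((range b).image ρ).card := by rw [Finset.card_image_of_injOn hinj, card_range]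
      _ ≤ P.roots.toFinset.card := Finset.card_le_card hsub
      _ ≤ P.roots.card := Multiset.toFinset_card_le _
  rw [splits_iff_card_roots]
  exact le_antisymm (card_roots' P) (by rw [hnat]; exact hcard)

end Vale.Agent.P007
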