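import Vale.Agent.P007.Defs

namespace Vale.Agent.P007

open Matrix MeasureTheory Topology

variable {n : ℕ}

instance instSecondCountableMat : SecondCountableTopology (Matrix (Fin n) (Fin n) ℝ) :=
  inferInstanceAs <| SecondCountableTopology (Fin n → Fin n → ℝ)

instance instLocallyCompactMat : LocallyCompactSpace (Matrix (Fin n) (Fin n) ℝ) :=
  inferInstanceAs <| LocallyCompactSpace (Fin n → Fin n → ℝ)

instance instSecondCountableSLR : SecondCountableTopology (SLR n) :=
  (Matrix.SpecialLinearGroup.isClosedEmbedding_val (n := Fin n)
    (R := ℝ)).isEmbedding.secondCountableTopology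

instance instLocallyCompactSLR : LocallyCompactSpace (SLR n) :=
  (Matrix.SpecialLinearGroup.isClosedEmbedding_val (n := Fin n) (R := ℝ)).locallyCompactSpace

instance instIsClosedSLZ : IsClosed ((SLZ n : Subgroup (SLR n)) : Set (SLR n)) := by
  have h : IsClosedEmbedding (Matrix.SpecialLinearGroup.map (n := Fin n) (Int.castRingHom ℝ)) :=
    Topology.IsClosedEmbedding.specialLinearGroup_map Int.isClosedEmbedding_coe_real
  simpa [SLZ] using h.isClosed_range

example : T2Space (LatX n) := inferInstance
example : LocallyCompactSpace (LatX n) := inferInstance
example : SecondCountableTopology (LatX n) := inferInstance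
example : RegularSpace (LatX n) := inferInstance
example : TopologicalSpace.PseudoMetrizableSpace (LatX n) := inferInstance
example : SigmaCompactSpace (LatX n) := inferInstance
example (m : Measure (LatX n)) [IsFiniteMeasure m] : m.Regular := inferInstance

end Vale.Agent.P007
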